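import Vale.Agent.P180.R2.H12.Alt1

/-!
P180: the corner property lifts through quotients by central subgroups of order prime to `p`.
-/

set_option linter.all false

namespace Vale.Agent.P180.R2.H589

open Vale.Agent.P180 Vale.Agent.P180.H768.Gd Vale.Agent.P180.R2.H799 Vale.Agent.P180.R2.H12

section

variable {k : Type*} [Field k] {G H : Type*} [Group G] [Finite G] [Group H] [Finite H]

/-- The section of the map of group algebras. -/
noncomputable def sq (q : G →* H) (a : MonoidAlgebra k H) : MonoidAlgebra k G :=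
  letI := Fintype.ofFinite G
  ∑ g : G, MonoidAlgebra.single g ((Nat.card q.ker : k)⁻¹ * a.coeff (q g))

variable {q : G →* H}

theorem sq_coeff (a : MonoidAlgebra k H) (g : G) :
    (sq q a).coeff g = (Nat.card q.ker : k)⁻¹ * a.coeff (q g) := by
  classical
  unfold sq
  letI := Fintype.ofFinite G
  rw [MonoidAlgebra.coeff_sum, Finsupp.finset_sum_apply, Finset.sum_eq_single g]
  · rw [coeff_single, if_pos rfl]
  · intro b _ hb
    rw [coeff_single, if_neg hb]
  · intro h
    exact absurd (Finset.mem_univ g) h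

theorem sq_add (a b : MonoidAlgebra k H) : sq q (a + b) = sq q a + sq q b := by
  apply ext_coeff
  intro x
  rw [MonoidAlgebra.coeff_add, Finsupp.add_apply, sq_coeff, sq_coeff, sq_coeff,
    MonoidAlgebra.coeff_add, Finsupp.add_apply, mul_add]

theorem sq_smul (c : k) (a : MonoidAlgebra k H) : sq q (c • a) = c • sq q a := by
  apply ext_coeff
  intro x
  rw [MonoidAlgebra.coeff_smul, Finsupp.smul_apply, sq_coeff, sq_coeff, MonoidAlgebra.coeff_smul,
    Finsupp.smul_apply, smul_eq_mul, smul_eq_mul, mul_left_comm]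

theorem sq_zero : sq q (0 : MonoidAlgebra k H) = 0 := by
  have := sq_smul (q := q) (0 : k) (0 : MonoidAlgebra k H)
  rwa [zero_smul, zero_smul] at this

theorem sq_tm (a : MonoidAlgebra k G) : sq q (tm (RingHom.id k) q a) = sq q 1 * a := by
  classical
  induction a using MonoidAlgebra.induction_linear with
  | zero => rw [map_zero, mul_zero, sq_zero]
  | add a b ha hb => rw [map_add, sq_add, ha, hb, mul_add]
  | single y r =>
    apply ext_coeff
    intro g
    rw [tm_single, sq_coeff, coeff_single, MonoidAlgebra.coeff_mul_single_apply, sq_coeff,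
      MonoidAlgebra.one_def, coeff_single, mul_assoc]
    congr 1
    by_cases h : q y = q g
    · rw [if_pos h, if_pos (by rw [map_mul, map_inv, h, mul_inv_cancel]), one_mul]
      rfl
    · rw [if_neg h, if_neg (fun h' => h ?_), zero_mul]
      rw [map_mul, map_inv, eq_mul_inv_iff_mul_eq, one_mul] at h'
      exact h'

theorem sq_one_comm (a : MonoidAlgebra k G) : sq q 1 * a = a * sq q 1 := by
  classical
  induction a using MonoidAlgebra.induction_linear with
  | zero => rw [mul_zero, zero_mul]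
  | add a b ha hb => rw [mul_add, ha, hb, add_mul]
  | single y r =>
    apply ext_coeff
    intro g
    rw [MonoidAlgebra.coeff_mul_single_apply, MonoidAlgebra.coeff_single_mul_apply, sq_coeff,
      sq_coeff, MonoidAlgebra.one_def, coeff_single, coeff_single, mul_comm]
    congr 2
    have h1 : (1 = q (g * y⁻¹)) ↔ (1 = q (y⁻¹ * g)) := by
      rw [map_mul, map_mul, map_inv, eq_mul_inv_iff_mul_eq, eq_inv_mul_iff_mul_eq, one_mul,
        mul_one]
    simp only [h1]

theorem sq_supp {X : Subgroup H} {a : MonoidAlgebra k H} (ha : a ∈ SubAlg k X) :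
    sq q a ∈ SubAlg k (X.comap q) := by
  intro g hg
  rw [sq_coeff] at hg
  exact ha _ (right_ne_zero_of_mul hg)

theorem sq_cj (g : G) (a : MonoidAlgebra k H) : cj k G g (sq q a) = sq q (cj k H (q g) a) := by
  classical
  apply ext_coeff
  intro x
  rw [cj_eq, cj_eq, MonoidAlgebra.coeff_mul_single_apply, MonoidAlgebra.coeff_single_mul_apply,
    sq_coeff, sq_coeff, MonoidAlgebra.coeff_mul_single_apply,
    MonoidAlgebra.coeff_single_mul_apply, mul_one, one_mul, mul_one, one_mul]
  congr 2
  simp only [map_mul, map_inv]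

theorem sq_injective (hp : (Nat.card q.ker : k) ≠ 0) (hq : Function.Surjective q) :
    Function.Injective (sq q : MonoidAlgebra k H → MonoidAlgebra k G) := by
  intro a b h
  apply ext_coeff
  intro x
  obtain ⟨g, rfl⟩ := hq x
  have h1 := congrArg (fun c : MonoidAlgebra k G => c.coeff g) h
  simp only [sq_coeff] at h1
  exact mul_left_cancel₀ (inv_ne_zero hp) h1

theorem tm_sq (hp : (Nat.card q.ker : k) ≠ 0) (hq : Function.Surjective q)
    (a : MonoidAlgebra k H) : tm (RingHom.id k) q (sq q a) = a := by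
  classical
  letI := Fintype.ofFinite G
  apply ext_coeff
  intro x
  rw [tm_coeff_eq_sum' (φ := RingHom.id k)]
  have h1 : ∀ y : G, (if q y = x then (RingHom.id k) ((sq q a).coeff y) else 0) =
      if q y = x then (Nat.card q.ker : k)⁻¹ * a.coeff x else 0 := by
    intro y
    by_cases hy : q y = x
    · rw [if_pos hy, if_pos hy, RingHom.id_apply, sq_coeff, hy]
    · rw [if_neg hy, if_neg hy]
  rw [Finset.sum_congr rfl fun y _ => h1 y, ← Finset.sum_filter, Finset.sum_const, nsmul_eq_mul,
    ← mul_assoc]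
  have h2 : ((Finset.univ.filter fun y => q y = x).card : k) = (Nat.card q.ker : k) := by
    obtain ⟨g, rfl⟩ := hq x
    congr 1
    rw [← Fintype.card_subtype, ← Nat.card_eq_fintype_card]
    exact Nat.card_congr
      { toFun := fun y => ⟨y.1 * g⁻¹, by
          rw [MonoidHom.mem_ker, map_mul, y.2, map_inv, mul_inv_cancel]⟩
        invFun := fun y => ⟨y.1 * g, by
          rw [map_mul, MonoidHom.mem_ker.mp y.2, one_mul]⟩
        left_inv := fun y => Subtype.ext (by simp)
        right_inv := fun y => Subtype.ext (by simp) }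
  rw [h2, mul_inv_cancel₀ hp, one_mul]

theorem sq_mul (hp : (Nat.card q.ker : k) ≠ 0) (hq : Function.Surjective q)
    (a b : MonoidAlgebra k H) : sq q (a * b) = sq q a * sq q b := by
  have h1 : sq q (1 : MonoidAlgebra k H) * sq q 1 = sq q 1 := by
    rw [← sq_tm, tm_sq hp hq]
  have h2 : ∀ a : MonoidAlgebra k H, sq q 1 * sq q a = sq q a := by
    intro a
    rw [← sq_tm, tm_sq hp hq]
  have h3 : tm (RingHom.id k) q (sq q a * sq q b) = a * b := by
    rw [map_mul, tm_sq hp hq, tm_sq hp hq]
  rw [← h3, sq_tm, ← mul_assoc, h2]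

theorem one_sq_mul (hp : (Nat.card q.ker : k) ≠ 0) (hq : Function.Surjective q)
    (a : MonoidAlgebra k H) : sq q 1 * sq q a = sq q a := by
  rw [← sq_mul hp hq, one_mul]

/-- Coprime action. -/
theorem cent_iff {p : ℕ} [Fact p.Prime] [CharP k p] (hp : (Nat.card q.ker : k) ≠ 0)
    (hc : ∀ x, q x = 1 → ∀ g, x * g = g * x) {R : Subgroup G} (hR : IsPGroup p R) (g : G) :
    g ∈ Subgroup.centralizer (R : Set G) ↔
      q g ∈ Subgroup.centralizer ((R.map q : Subgroup H) : Set H) := by
  constructor
  · intro h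
    rw [mem_cent] at h ⊢
    rintro _ ⟨r, hr, rfl⟩
    rw [← map_inv, ← map_mul, ← map_mul, h r hr]
  · intro h
    rw [mem_cent] at h ⊢
    intro r hr
    have h1 : q (r * g * r⁻¹ * g⁻¹) = 1 := by
      rw [map_mul, map_mul, map_mul, map_inv, map_inv, h (q r) ⟨r, hr, rfl⟩, mul_inv_cancel]
    obtain ⟨n, hn⟩ := hR ⟨r, hr⟩
    have hn : r ^ p ^ n = 1 := congrArg Subtype.val hn
    obtain ⟨c, hcd⟩ : ∃ c, c = r * g * r⁻¹ * g⁻¹ := ⟨_, rfl⟩
    rw [← hcd] at h1
    have hcc := hc c h1
    have h2 : ∀ m : ℕ, r ^ m * g * (r ^ m)⁻¹ = c ^ m * g := by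
      intro m
      induction m with
      | zero => simp
      | succ m ih =>
        have e1 : r ^ (m + 1) * g * (r ^ (m + 1))⁻¹ = r * (r ^ m * g * (r ^ m)⁻¹) * r⁻¹ := by
          rw [pow_succ']; group
        rw [e1, ih]
        have e2 : c ^ m * r = r * c ^ m := (Commute.pow_left (hcc r) m)
        have e3 : r * g * r⁻¹ = c * g := by rw [hcd]; group
        calc r * (c ^ m * g) * r⁻¹ = (r * c ^ m) * g * r⁻¹ := by group
          _ = c ^ m * (r * g * r⁻¹) := by rw [← e2]; group
          _ = c ^ (m + 1) * g := by rw [e3, pow_succ, mul_assoc]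
    have h3 := h2 (p ^ n)
    rw [hn, one_mul, inv_one, mul_one] at h3
    have h4 : c ^ p ^ n = 1 := by
      have := mul_right_cancel (b := g) (a := 1) (c := c ^ p ^ n) (by rw [one_mul]; exact h3)
      exact this.symm
    have h5 : c ^ Nat.card q.ker = 1 := by
      have h6 : (⟨c, h1⟩ : q.ker) ^ Nat.card q.ker = 1 := pow_card_eq_one'
      exact congrArg Subtype.val h6
    have h6 : Nat.Coprime (p ^ n) (Nat.card q.ker) := by
      apply Nat.Coprime.pow_left
      rw [(Fact.out : p.Prime).coprime_iff_not_dvd]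
      intro hd
      exact hp ((CharP.cast_eq_zero_iff k p _).mpr hd)
    have h7 : c = 1 := by
      have h8 := orderOf_dvd_of_pow_eq_one h4
      have h9 := orderOf_dvd_of_pow_eq_one h5
      have h10 := Nat.dvd_gcd h8 h9
      rw [h6] at h10
      exact orderOf_eq_one_iff.mp (Nat.dvd_one.mp h10)
    have h8 : r * g * r⁻¹ = c * g := by rw [hcd]; group
    rw [h8, h7, one_mul]

theorem br_sq {p : ℕ} [Fact p.Prime] [CharP k p] (hp : (Nat.card q.ker : k) ≠ 0)
    (hc : ∀ x, q x = 1 → ∀ g, x * g = g * x) {R : Subgroup G} (hR : IsPGroup p R)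
    (a : MonoidAlgebra k H) : br R (sq q a) = sq q (br (R.map q) a) := by
  classical
  apply ext_coeff
  intro g
  rw [br_coeff, sq_coeff, sq_coeff, br_coeff]
  by_cases h : g ∈ Subgroup.centralizer (R : Set G)
  · rw [if_pos h, if_pos ((cent_iff hp hc hR g).mp h)]
  · rw [if_neg h, if_neg (fun h' => h ((cent_iff hp hc hR g).mpr h')), mul_zero]

theorem ker_mul_of {S : Subgroup G} (hZS : q.ker ≤ S) {g : G} (hg : q g ∈ S.map q) : g ∈ S := by
  obtain ⟨s, hs, h⟩ := hg
  have h1 : s⁻¹ * g ∈ q.ker := by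
    rw [MonoidHom.mem_ker, map_mul, map_inv, h, inv_mul_cancel]
  have h2 := S.mul_mem hs (hZS h1)
  rwa [mul_inv_cancel_left] at h2

theorem finrank_NN_sq (hp : (Nat.card q.ker : k) ≠ 0) (hq : Function.Surjective q)
    {S : Subgroup G} (hZS : q.ker ≤ S) (e f : MonoidAlgebra k H) :
    Module.finrank k (NN (SubAlg k S) (sq q e) (sq q f)) ≤
      Module.finrank k (NN (SubAlg k (S.map q)) e f) := by
  have h1 : NN (SubAlg k S) (sq q e) (sq q f) ≤
      (NN (SubAlg k (S.map q)) e f).map
        ({ toFun := sq q, map_add' := sq_add, map_smul' := sq_smul } :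
          MonoidAlgebra k H →ₗ[k] MonoidAlgebra k G) := by
    rintro x ⟨h1, h2, h3⟩
    have h4 : sq q (tm (RingHom.id k) q x) = x := by
      rw [sq_tm]
      conv_lhs => rw [← h2]
      rw [← mul_assoc, one_sq_mul hp hq, h2]
    refine ⟨tm (RingHom.id k) q x, ⟨tm_mem h1, ?_, ?_⟩, h4⟩
    · apply sq_injective hp hq
      rw [sq_mul hp hq, h4, h2]
    · apply sq_injective hp hq
      rw [sq_mul hp hq, h4, h3]
  exact (Submodule.finrank_mono h1).trans (Submodule.finrank_map_le _ _)

/-- **The corner property lifts through central quotients of order prime to `p`.** -/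
theorem cor_quot {p : ℕ} [Fact p.Prime] [CharP k p] (hp : (Nat.card q.ker : k) ≠ 0)
    (hq : Function.Surjective q) (hc : ∀ x, q x = 1 → ∀ g, x * g = g * x)
    {S R : Subgroup G} (hZS : q.ker ≤ S) (hR : IsPGroup p R) {C : ℕ} {e : MonoidAlgebra k G}
    (he : sq q 1 * e = e) (h : H954.Cor C (S.map q) (R.map q) (tm (RingHom.id k) q e)) :
    H954.Cor C S R e := by
  obtain ⟨m, f, hf, hspan⟩ := h
  have hes : sq q (tm (RingHom.id k) q e) = e := by rw [sq_tm, he]
  have hSS : (S.map q).comap q ≤ S := fun g hg => ker_mul_of hZS hg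
  refine ⟨m, fun l => sq q (f l), fun l => ⟨SubAlg_mono hSS (sq_supp (hf l).1), ?_, ?_, ?_⟩, ?_⟩
  · intro r hr
    rw [sq_cj, (hf l).2.1 (q r) ⟨r, hr, rfl⟩]
  · rw [← sq_mul hp hq, (hf l).2.2.1]
  · have h1 : e * sq q (f l) = sq q (tm (RingHom.id k) q e * f l) := by
      rw [sq_mul hp hq, hes]
    rw [h1]
    exact (finrank_NN_sq hp hq hZS _ _).trans (hf l).2.2.2
  · have h1 : br R e = sq q (br (R.map q) (tm (RingHom.id k) q e)) := by
      rw [← br_sq hp hc hR, hes]
    rw [h1]
    have h2 : ∀ z ∈ Submodule.span k (Fam.Gens k (S.map q) (R.map q) f),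
        sq q z ∈ Submodule.span k (Fam.Gens k S R fun l => sq q (f l)) := by
      intro z hz
      induction hz using Submodule.span_induction with
      | mem z hz =>
        obtain ⟨l, x, hx, y, hy, rfl⟩ := hz
        have h3 : ∀ x ∈ SubAlg k (S.map q ⊓ Subgroup.centralizer
            ((R.map q : Subgroup H) : Set H)), sq q x ∈
            SubAlg k (S ⊓ Subgroup.centralizer (R : Set G)) := by
          intro x hx g hg
          rw [sq_coeff] at hg
          have h4 := hx _ (right_ne_zero_of_mul hg)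
          exact ⟨ker_mul_of hZS h4.1, (cent_iff hp hc hR g).mpr h4.2⟩
        refine Submodule.subset_span ⟨l, sq q x, h3 x hx, sq q y, h3 y hy, ?_⟩
        beta_reduce
        rw [sq_mul hp hq, sq_mul hp hq, br_sq hp hc hR]
      | zero => rw [sq_zero]; exact Submodule.zero_mem _
      | add a b _ _ ha hb => rw [sq_add]; exact Submodule.add_mem _ ha hb
      | smul c a _ ha => rw [sq_smul]; exact Submodule.smul_mem _ c ha
    exact h2 _ hspan

/-- Blocks of central quotients of order prime to `p`. -/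
theorem block_quot (hp : (Nat.card q.ker : k) ≠ 0)
    (hq : Function.Surjective q) {S : Subgroup G} (hZS : q.ker ≤ S) {e : MonoidAlgebra k G}
    (he : sq q 1 * e = e) (hb : IsBlockOf S e) :
    IsBlockOf (S.map q) (tm (RingHom.id k) q e) := by
  have hes : sq q (tm (RingHom.id k) q e) = e := by rw [sq_tm, he]
  have hSS : (S.map q).comap q ≤ S := fun g hg => ker_mul_of hZS hg
  refine ⟨?_, ?_, ?_, ?_⟩
  · rw [mem_ZAlg]
    refine ⟨tm_mem hb.mem.1, ?_⟩
    rintro _ ⟨s, hs, rfl⟩
    rw [← tm_cj, hb.mem.2 s hs]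
  · change tm (RingHom.id k) q e * tm (RingHom.id k) q e = _
    rw [← map_mul, hb.idem.eq]
  · intro h0
    apply hb.ne_zero
    rw [← hes, h0, sq_zero]
  · intro c hc hcc hce
    rw [mem_ZAlg] at hc
    have h1 : sq q c ∈ ZAlg k S := by
      rw [mem_ZAlg]
      refine ⟨SubAlg_mono hSS (sq_supp hc.1), ?_⟩
      intro s hs
      rw [sq_cj, hc.2 (q s) ⟨s, hs, rfl⟩]
    rcases hb.primitive (sq q c) h1
      (by change sq q c * sq q c = sq q c; rw [← sq_mul hp hq, hcc.eq])
      (by
        conv_lhs => rw [← hes]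
        rw [← sq_mul hp hq, hce]) with h2 | h2
    · left
      rw [← tm_sq hp hq c, h2, map_zero]
    · right
      rw [← tm_sq hp hq c, h2]

end

end Vale.Agent.P180.R2.H589
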