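import Vale.Agent.P180.R2.H589.Cov.Spin
import Vale.Agent.P180.R2.H589.Spin.JM

set_option linter.unusedSectionVars false

/-!
P180: every perfect central extension of the alternating group of degree at least 8, with nontrivial
kernel, is the alternating part of a spin structure.
-/

namespace Vale.Agent.P180.R2.H589

open Equiv Finset

namespace AltExt

variable {α : Type} [Fintype α] [DecidableEq α] {L : Type} [Group L] (E : AltExt α L)

/-- The homomorphism from `{1, -1}` onto the subgroup generated by a transposition. -/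
def rho (p q : α) : ℤˣ →* Perm α where
  toFun u := if u = 1 then 1 else swap p q
  map_one' := by simp
  map_mul' := by
    intro u v
    rcases Int.units_eq_one_or u with rfl | rfl <;> rcases Int.units_eq_one_or v with rfl | rfl <;>
      simp

theorem rho_neg (p q : α) : rho p q (-1) = swap p q := by
  show (if (-1 : ℤˣ) = 1 then 1 else swap p q) = swap p q
  rw [if_neg (by decide)]

theorem sign_rho {p q : α} (hpq : p ≠ q) (u : ℤˣ) : Perm.sign (rho p q u) = u := by
  rcases Int.units_eq_one_or u with rfl | rfl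
  · rw [map_one, map_one]
  · rw [rho_neg, Perm.sign_swap hpq]

theorem exists_pre [Finite L] (h8 : 8 ≤ Fintype.card α) (hk : E.π.ker ≠ ⊥) :
    ∃ (Γ : Type) (_ : Group Γ) (_ : Finite Γ), Nonempty (Pre E Γ) := by
  obtain ⟨Θ, hΘ⟩ := E.exists_Θ h8 hk
  obtain ⟨p, q, hpq⟩ : ∃ p q : α, p ≠ q := by
    have : 1 < (univ : Finset α).card := by rw [card_univ]; omega
    obtain ⟨p, -, q, -, h⟩ := one_lt_card.1 this
    exact ⟨p, q, h⟩
  set φ : ℤˣ →* MulAut L := Θ.comp (rho p q) with hφ
  let pr : L ⋊[φ] ℤˣ →* Perm α := SemidirectProduct.lift E.π (rho p q) (by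
    intro u
    ext1 x
    show E.π (Θ (rho p q u) x) = rho p q u * E.π x * (rho p q u)⁻¹
    exact hΘ _ _)
  refine ⟨L ⋊[φ] ℤˣ, inferInstance, ?_, ⟨{
    j := SemidirectProduct.inl
    inj := SemidirectProduct.inl_injective
    pr := pr
    prj := fun x => SemidirectProduct.lift_inl _ _ _ x
    even := ?_
    p := p
    q := q
    hpq := hpq
    τ0 := SemidirectProduct.inr (-1)
    prτ0 := ?_
    sq := ?_ }⟩⟩
  · exact Finite.of_equiv (L × ℤˣ) SemidirectProduct.equivProd.symm
  · intro g hg
    have h1 : g = SemidirectProduct.inl g.left * SemidirectProduct.inr g.right :=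
      (SemidirectProduct.inl_left_mul_inr_right g).symm
    have h2 : pr g = E.π g.left * rho p q g.right := by
      conv_lhs => rw [h1]
      rw [map_mul]
      have e1 : pr (SemidirectProduct.inl g.left) = E.π g.left := SemidirectProduct.lift_inl _ _ _ _
      have e2 : pr (SemidirectProduct.inr g.right) = rho p q g.right :=
        SemidirectProduct.lift_inr _ _ _ _
      rw [e1, e2]
    rw [h2, map_mul, E.sign_π, one_mul, sign_rho hpq] at hg
    refine ⟨g.left, ?_⟩
    rw [h1, hg]
    simp
  · have e2 : pr (SemidirectProduct.inr (-1)) = rho p q (-1) := SemidirectProduct.lift_inr _ _ _ _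
    rw [e2, rho_neg]
  · rw [← map_mul]
    show SemidirectProduct.inr ((-1 : ℤˣ) * -1) = 1
    rw [show ((-1 : ℤˣ) * -1) = 1 by decide, map_one]

/-- **Perfect central extensions of alternating groups** of degree at least 8 with nontrivial
kernel are double covers, with a spin structure. -/
theorem exists_spin [Finite L] (h8 : 8 ≤ Fintype.card α) (hk : E.π.ker ≠ ⊥) :
    ∃ (Γ : Type) (_ : Group Γ) (_ : Finite Γ) (S : SpinStr α Γ) (e : L ≃* S.ΓA),
      (∀ x, S.π (e x) = E.π x) ∧ ∀ x, E.π x = 1 → x ≠ 1 → (e x : Γ) = S.z := by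
  obtain ⟨s, ε, hs⟩ := E.exists_nsec h8
  have hKer : Pre.Ker E ε := by
    refine ⟨?_, fun x => E.mem_ker_iff h8 hs⟩
    rintro rfl
    apply hk
    rw [E.ker_eq h8 hs, Subgroup.zpowers_one_eq_bot]
  obtain ⟨Γ, hG, hF, ⟨P⟩⟩ := E.exists_pre h8 hk
  obtain ⟨S, hSπ, hSz⟩ := P.exists_spinStr h8 hs hKer
  classical
  have := Fintype.ofFinite Γ
  have hA : ∀ x, P.j x ∈ S.ΓA := by
    intro x
    rw [S.mem_ΓA, hSπ, P.prj, E.sign_π]
  let f : L →* S.ΓA :=
    { toFun := fun x => ⟨P.j x, hA x⟩
      map_one' := Subtype.ext (map_one _)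
      map_mul' := fun x y => Subtype.ext (map_mul _ _ _) }
  have hf : Function.Bijective f := by
    constructor
    · intro x y hxy
      exact P.inj (congrArg Subtype.val hxy)
    · rintro ⟨g, hg⟩
      rw [S.mem_ΓA, hSπ] at hg
      obtain ⟨x, rfl⟩ := P.even g hg
      exact ⟨x, rfl⟩
  refine ⟨Γ, hG, hF, S, MulEquiv.ofBijective f hf, ?_, ?_⟩
  · intro x
    show S.π (P.j x) = E.π x
    rw [hSπ, P.prj]
  · intro x hx hx1
    show P.j x = S.z
    rcases (S.ker (P.j x)).1 (by rw [hSπ, P.prj, hx]) with h | h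
    · exact absurd (P.inj (by rw [h, map_one])) hx1
    · exact h

end AltExt

end Vale.Agent.P180.R2.H589

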