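import Vale.Agent.P180.R2.H589.Cov.Qt
import Vale.Agent.P180.R2.H589.Cov.Main
import Vale.Agent.P180.R2.H589.Spin.Corner3

/-!
P180: traces and quotients; the data of a perfect central extension of an alternating group.
-/

set_option linter.all false

namespace Vale.Agent.P180.R2.H589

open Equiv Vale.Agent.P180 Vale.Agent.P180.H768.Gd Vale.Agent.P180.R2.H799 Vale.Agent.P180.R2.H12

section

variable {k : Type*} [Field k] {G H : Type*} [Group G] [Finite G] [Group H] [Finite H]
  {q : G →* H}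

theorem fix_map {X : Subgroup G} {a : MonoidAlgebra k G} (ha : a ∈ Fix (cj k G) X) :
    tm (RingHom.id k) q a ∈ Fix (cj k H) (X.map q) := by
  rintro _ ⟨x, hx, rfl⟩
  rw [← tm_cj, ha x hx]

theorem tm_tr_ker {X Y : Subgroup G} (hX : q.ker ≤ X) {a : MonoidAlgebra k G}
    (ha : a ∈ Fix (cj k G) X) :
    tm (RingHom.id k) q (tr (cj k G) X Y a) =
      tr (cj k H) (X.map q) (Y.map q) (tm (RingHom.id k) q a) := by
  classical
  have _ := Fintype.ofFinite (Y ⧸ X.subgroupOf Y)
  rw [tr_def, map_sum, tr_eq_sum' (fix_map ha) (fun t : Y ⧸ X.subgroupOf Y =>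
    q ((t.out : Y) : G))]
  · refine Finset.sum_congr rfl fun t _ => ?_
    exact tm_cj _ _ _ _
  · intro t
    exact ⟨_, (t.out : Y).2, rfl⟩
  · intro t t' h
    rw [← QuotientGroup.out_eq' t, ← QuotientGroup.out_eq' t', QuotientGroup.eq,
      Subgroup.mem_subgroupOf]
    rw [← map_inv, ← map_mul] at h
    exact ker_mul_of hX h
  · rintro _ ⟨x, hx, rfl⟩
    refine ⟨((⟨x, hx⟩ : Y) : Y ⧸ X.subgroupOf Y), ?_⟩
    have h2 : ((((⟨x, hx⟩ : Y) : Y ⧸ X.subgroupOf Y).out : Y) : Y ⧸ X.subgroupOf Y) =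
        ((⟨x, hx⟩ : Y) : Y ⧸ X.subgroupOf Y) := QuotientGroup.out_eq' _
    rw [QuotientGroup.eq, Subgroup.mem_subgroupOf] at h2
    rw [← map_inv, ← map_mul]
    exact ⟨_, h2, rfl⟩

theorem trace_quot {S X Y : Subgroup G} [hS : S.Normal] (hXY : X ≤ Y) (hY : q.ker ≤ Y)
    {e z : MonoidAlgebra k G} (hzS : z ∈ SubAlg k S) (hz : z ∈ Fix (cj k G) X)
    (hez : e = tr (cj k G) X Y z) :
    ∃ z' ∈ SubAlg k (S.map q), z' ∈ Fix (cj k H) (X.map q) ∧
      tm (RingHom.id k) q e = tr (cj k H) (X.map q) (Y.map q) z' := by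
  set W : Subgroup G := X ⊔ q.ker with hW
  have hXW : X ≤ W := le_sup_left
  have hWY : W ≤ Y := sup_le hXY hY
  have hkW : q.ker ≤ W := le_sup_right
  have hmap : W.map q = X.map q := by
    rw [hW, Subgroup.map_sup]
    have : q.ker.map q = ⊥ := by
      rw [eq_bot_iff]
      rintro _ ⟨x, hx, rfl⟩
      rw [MonoidHom.mem_ker.mp hx]
      exact Subgroup.one_mem _
    rw [this, sup_bot_eq]
  have hwF : tr (cj k G) X W z ∈ Fix (cj k G) W := tr_mem_Fix hz
  refine ⟨tm (RingHom.id k) q (tr (cj k G) X W z), ?_, ?_, ?_⟩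
  · apply tm_mem
    classical
    have _ := Fintype.ofFinite (W ⧸ X.subgroupOf W)
    rw [tr_def]
    refine Subalgebra.sum_mem _ fun t _ => ?_
    exact cj_SubAlg _ (fun x hx => hS.conj_mem x hx _) hzS
  · rw [← hmap]
    exact fix_map hwF
  · conv_lhs => rw [hez, ← tr_tr hz hXW hWY, tm_tr_ker hkW hwF, hmap]

end

section Data

variable {G H : Type} [Group G] [Finite G] [Group H] [Finite H]

/-- The data for one cover of an alternating group. -/
theorem exists_data_cov {d : ℕ} (hd : 7 ≤ d) {S : Subgroup G} (hS : S.Normal) {q : G →* H}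
    (hq : Function.Surjective q) (hker : ∀ x, q x = 1 → ∀ y ∈ S, x * y = y * x)
    (φ : alternatingGroup (Fin d) →* H) (hφ : Function.Injective φ) (hφS : φ.range = S.map q) :
    ∃ (A : AltData H 1 (fun _ => d)) (F : Fam G 1 ⊤), A.ι = φ.comp (Pi.evalMonoidHom _ 0) ∧
      F.A 0 = S ∧ CovData q A F := by
  classical
  let ι : (∀ j : Fin 1, alternatingGroup (Fin ((fun _ => d) j))) →* H :=
    φ.comp (Pi.evalMonoidHom _ 0)
  have hι : Function.Injective ι := by
    intro x y h
    funext j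
    rw [Subsingleton.elim j 0]
    exact hφ h
  have hιS : ι.range = S.map q := by
    rw [← hφS]
    ext x
    constructor
    · rintro ⟨y, rfl⟩
      exact ⟨y 0, rfl⟩
    · rintro ⟨y, rfl⟩
      exact ⟨fun _ => y, rfl⟩
  have hn : ι.range.Normal := by
    rw [hιS]
    exact hS.map q hq
  obtain ⟨ρ, -, h2, h3, h4⟩ := H471.exists_rho (fun _ => hd) ι hι hn
  let A : AltData H 1 (fun _ => d) :=
    { ι := ι
      inj := hι
      conj := fun g τ => hn.conj_mem _ ⟨τ, rfl⟩ g
      ρ := ρ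
      σ := 1
      ρ_fst := fun g a => Subsingleton.elim _ _
      ρ_ι := by
        intro τ a
        rw [h2]
        rfl }
  let F : Fam G 1 ⊤ :=
    { A := fun _ => S
      σ := 1
      comm := fun i j hij => absurd (Subsingleton.elim i j) hij
      conj := fun g j x hx => hS.conj_mem x hx g }
  refine ⟨A, F, rfl, rfl, ⟨?_, ?_, fun g j => Subsingleton.elim _ _⟩⟩
  · intro x hx j y hy
    exact hker x hx y hy
  · intro j
    change S.map q = _
    rw [← hφS]
    ext x
    constructor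
    · rintro ⟨y, rfl⟩
      refine ⟨y, ?_⟩
      change φ ((Pi.mulSingle j y : ∀ j : Fin 1, alternatingGroup (Fin ((fun _ => d) j))) 0) = φ y
      rw [Subsingleton.elim j 0, Pi.mulSingle_eq_same]
    · rintro ⟨y, rfl⟩
      exact ⟨_, rfl⟩

/-- the map from the alternating group to the quotient -/
theorem exists_phi {d : ℕ} {S : Subgroup G} (E : AltExt (Fin d) S) {q : G →* H}
    (hker : ∀ x : S, q x = 1 ↔ E.π x = 1) :
    ∃ φ : alternatingGroup (Fin d) →* H, Function.Injective φ ∧ φ.range = S.map q ∧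
      ∀ (x : S) (u : alternatingGroup (Fin d)), φ u = q x ↔ (u : Perm (Fin d)) = E.π x := by
  classical
  have hmem : ∀ x : S, E.π x ∈ alternatingGroup (Fin d) := by
    intro x
    rw [← E.range]
    exact ⟨x, rfl⟩
  let ψ : S →* alternatingGroup (Fin d) := E.π.codRestrict _ hmem
  have hψ : Function.Surjective ψ := by
    rintro ⟨u, hu⟩
    rw [← E.range] at hu
    obtain ⟨x, rfl⟩ := hu
    exact ⟨x, rfl⟩
  have hψ1 : ∀ x, ψ x = 1 ↔ E.π x = 1 := by
    intro x
    constructor
    · intro h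
      exact congrArg Subtype.val h
    · intro h
      exact Subtype.ext h
  let θ : S →* H := q.comp S.subtype
  have hle : ψ.ker ≤ θ.ker := by
    intro x hx
    exact (hker x).mpr ((hψ1 x).mp hx)
  let φ : alternatingGroup (Fin d) →* H := ψ.liftOfSurjective hψ ⟨θ, hle⟩
  have hφ : ∀ x, φ (ψ x) = θ x := fun x =>
    MonoidHom.liftOfRightInverse_comp_apply ψ (Function.surjInv hψ)
      (Function.rightInverse_surjInv hψ) ⟨θ, hle⟩ x
  have hinj : Function.Injective φ := by
    rw [injective_iff_map_eq_one]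
    intro u hu
    obtain ⟨x, rfl⟩ := hψ u
    rw [hφ] at hu
    exact (hψ1 x).mpr ((hker x).mp hu)
  refine ⟨φ, hinj, ?_, ?_⟩
  · ext y
    constructor
    · rintro ⟨u, rfl⟩
      obtain ⟨x, rfl⟩ := hψ u
      rw [hφ]
      exact ⟨x, x.2, rfl⟩
    · rintro ⟨x, hx, rfl⟩
      exact ⟨ψ ⟨x, hx⟩, hφ _⟩
  · intro x u
    constructor
    · intro h
      have h1 : u = ψ x := hinj (by rw [hφ, h]; rfl)
      rw [h1]
      rfl
    · intro h
      have h1 : u = ψ x := Subtype.ext h
      rw [h1, hφ]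
      rfl

end Data

end Vale.Agent.P180.R2.H589
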