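import Vale.Agent.P180.R2.H589.Cov.Cor
import Vale.Agent.P180.R2.H12.CovG
import Vale.Agent.P180.R2.H365.LocC
import Vale.Agent.P180.R2.H471.AltAut

/-!
P180: components which are perfect central extensions of alternating groups.
-/

set_option linter.all false

namespace Vale.Agent.P180.R2.H589

open Equiv Vale.Agent.P180 Vale.Agent.P180.H768.Gd Vale.Agent.P180.R2.H799 Vale.Agent.P180.R2.H12
open scoped commutatorElement

universe u

theorem cor_mono {k : Type*} [Field k] {G : Type*} [Group G] {C C' : ℕ} (h : C ≤ C')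
    {S R : Subgroup G} {e : MonoidAlgebra k G} (hc : H954.Cor C S R e) : H954.Cor C' S R e := by
  obtain ⟨l, f, hf, hsp⟩ := hc
  exact ⟨l, f, fun j => ⟨(hf j).1, (hf j).2.1, (hf j).2.2.1, (hf j).2.2.2.trans h⟩, hsp⟩

/-- The extension given by the quotient by the centre. -/
def extOf {L : Type} [Group L] {d : ℕ} (hperf : commutator L = ⊤)
    (iso : L ⧸ Subgroup.center L ≃* alternatingGroup (Fin d)) : AltExt (Fin d) L where
  π := (alternatingGroup (Fin d)).subtype.comp
    (iso.toMonoidHom.comp (QuotientGroup.mk' (Subgroup.center L)))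
  range := by
    ext y
    constructor
    · rintro ⟨x, rfl⟩
      exact (iso (QuotientGroup.mk' (Subgroup.center L) x)).2
    · intro hy
      obtain ⟨x, hx⟩ := QuotientGroup.mk'_surjective (Subgroup.center L) (iso.symm ⟨y, hy⟩)
      refine ⟨x, ?_⟩
      change ((iso (QuotientGroup.mk' (Subgroup.center L) x) : alternatingGroup (Fin d)) :
        Perm (Fin d)) = y
      rw [hx, iso.apply_symm_apply]
  central := by
    intro x hx y
    have h1 : iso (QuotientGroup.mk' (Subgroup.center L) x) = 1 := Subtype.ext hx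
    have h2 : QuotientGroup.mk' (Subgroup.center L) x = 1 := by
      rw [← iso.map_one] at h1
      exact iso.injective h1
    have h3 : x ∈ Subgroup.center L := (QuotientGroup.eq_one_iff x).mp h2
    exact (Subgroup.mem_center_iff.mp h3 y).symm
  perfect := hperf

section

variable {k : Type u} [Field k] [IsAlgClosed k] {p : ℕ} [Fact p.Prime] [CharP k p]
  {G : Type} [Group G] [Finite G]

/-- **The corner property for perfect central extensions of alternating groups.** -/
theorem cor_ext {d n : ℕ} (hd : 8 ≤ d) {S R : Subgroup G} (E : AltExt (Fin d) S)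
    (hR : IsPGroup p R) (hRn : Nat.card R ≤ n) (hRS : ∀ x ∈ R, ∀ s ∈ S, x * s * x⁻¹ ∈ S)
    {e : MonoidAlgebra k G} (he : IsBlockOf S e) (hbr : br R e ≠ 0)
    (h1 : ∃ z ∈ SubAlg k S, z ∈ Fix (cj k G) (S ⊓ R) ∧ e = tr (cj k G) (S ⊓ R) S z)
    (h2 : ∃ z ∈ SubAlg k S, z ∈ Fix (cj k G) R ∧ e = tr (cj k G) R (S ⊔ R) z) :
    H954.Cor (2 * CA n) S R e := by
  by_cases hp2 : p = 2
  · by_cases hbot : E.π.ker = ⊥
    · have hinj : Function.Injective E.π := (MonoidHom.ker_eq_bot_iff _).mp hbot
      have iso : S ≃* alternatingGroup (Fin d) :=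
        (MonoidHom.ofInjective hinj).trans (MulEquiv.subgroupCongr E.range)
      exact cor_mono (by omega) (cor_alt (p := p) (by omega) iso hR hRn hRS he hbr h1 h2)
    · obtain ⟨z, hz, hz1⟩ : ∃ z ∈ E.π.ker, z ≠ 1 := by
        by_contra hcon
        push Not at hcon
        exact hbot ((Subgroup.eq_bot_iff_forall _).mpr hcon)
      subst hp2
      refine cor_two (by omega) E.π E.range z hz1 ?_ hR hRn hRS he hbr h1 h2
      intro s
      constructor
      · intro hs
        by_cases hs1 : s = 1
        · exact Or.inl hs1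
        · right
          have h3 : (⟨s, hs⟩ : E.π.ker) = ⟨z, hz⟩ := eq_of_card_le_two
            (E.card_ker_le (by rw [Fintype.card_fin]; exact hd))
            (fun h => hs1 (congrArg Subtype.val h)) (fun h => hz1 (congrArg Subtype.val h))
          exact congrArg Subtype.val h3
      · rintro (rfl | rfl)
        · exact map_one _
        · exact hz
  · exact cor_mono (by omega) (cor_cov (p := p) hd hp2 E hR hRn hRS he hbr h1 h2)

/-- The components `L` with `L / Z(L)` an alternating group of degree at least 8 have the corner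
property. -/
theorem corP_ext {d n : ℕ} (hd : 8 ≤ d) {D L : Subgroup G} (hperf : commutator L = ⊤)
    (iso : L ⧸ Subgroup.center L ≃* alternatingGroup (Fin d))
    (hD : IsPGroup p D) (hDn : Nat.card D ≤ n) (b : MonoidAlgebra k G) :
    H365.CorP p (2 * CA n) b D L := by
  intro R hRD hn e he heR hbr h1 h2
  exact cor_ext (p := p) hd (extOf hperf iso) (hD.to_le hRD) ((Nat.card_le_card_of_injective _
    (Subgroup.inclusion_injective hRD)).trans hDn) hn he.block hbr h1 h2

end

section Out

/-- Automorphisms of perfect central extensions of alternating groups. -/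
theorem aut_ext {d : ℕ} (hd : 7 ≤ d) {L : Type} [Group L] (E : AltExt (Fin d) L)
    (θ : MulAut L) : ∃! σ : Perm (Fin d), ∀ x, E.π (θ x) = σ * E.π x * σ⁻¹ := by
  have hmem : ∀ x : L, E.π x ∈ alternatingGroup (Fin d) := by
    intro x
    rw [← E.range]
    exact ⟨x, rfl⟩
  let ψ : L →* alternatingGroup (Fin d) := E.π.codRestrict _ hmem
  have hψ : Function.Surjective ψ := by
    rintro ⟨u, hu⟩
    rw [← E.range] at hu
    obtain ⟨x, rfl⟩ := hu
    exact ⟨x, rfl⟩
  have hψc : ∀ x, (ψ x : Perm (Fin d)) = E.π x := fun _ => rfl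
  have hker : ∀ (θ : MulAut L) x, ψ x = 1 → ψ (θ x) = 1 := by
    intro θ x hx
    have h1 : E.π x = 1 := congrArg Subtype.val hx
    have h2 : ∀ y, θ x * y = y * θ x := by
      intro y
      obtain ⟨y', rfl⟩ := θ.surjective y
      rw [← map_mul, ← map_mul, E.central x h1]
    exact Subtype.ext (π_of_central (by omega) E h2)
  have hle : ∀ θ : MulAut L, ψ.ker ≤ (ψ.comp θ.toMonoidHom).ker := fun θ x hx =>
    MonoidHom.mem_ker.mpr (hker θ x (MonoidHom.mem_ker.mp hx))
  let F : MulAut L → (alternatingGroup (Fin d) →* alternatingGroup (Fin d)) := fun θ =>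
    ψ.liftOfSurjective hψ ⟨ψ.comp θ.toMonoidHom, hle θ⟩
  have hF : ∀ θ x, F θ (ψ x) = ψ (θ x) := fun θ x =>
    MonoidHom.liftOfRightInverse_comp_apply ψ (Function.surjInv hψ)
      (Function.rightInverse_surjInv hψ) ⟨ψ.comp θ.toMonoidHom, hle θ⟩ x
  have hinv : ∀ θ y, F θ⁻¹ (F θ y) = y := by
    intro θ y
    obtain ⟨x, rfl⟩ := hψ y
    rw [hF, hF]
    congr 1
    exact θ.symm_apply_apply x
  let f : alternatingGroup (Fin d) ≃* alternatingGroup (Fin d) :=
    { toFun := F θ
      invFun := F θ⁻¹
      left_inv := hinv θ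
      right_inv := fun y => by
        have := hinv θ⁻¹ y
        rwa [inv_inv] at this
      map_mul' := map_mul _ }
  obtain ⟨σ, hσ, huniq⟩ := H471.alt_equiv_induced (α := Fin d) (β := Fin d)
    (by rw [Fintype.card_fin]; exact hd) (by rw [Fintype.card_fin]; exact hd) f
  have hcongr : ∀ (σ g : Perm (Fin d)), Equiv.permCongr σ g = σ * g * σ⁻¹ := by
    intro σ g
    ext1 a
    simp [Equiv.permCongr_apply, Equiv.Perm.inv_def]
  refine ⟨σ, ?_, ?_⟩
  · intro x
    have h1 := hσ (ψ x)
    rw [hcongr] at h1
    have h2 : f (ψ x) = ψ (θ x) := hF θ x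
    rw [h2] at h1
    exact h1
  · intro τ hτ
    apply huniq
    intro g
    obtain ⟨x, rfl⟩ := hψ g
    have h2 : f (ψ x) = ψ (θ x) := hF θ x
    rw [hcongr, h2]
    exact hτ x

/-- **Outer automorphisms.** -/
theorem out_ext {G : Type} [Group G] [Finite G] {d : ℕ} (hd : 7 ≤ d) {L : Subgroup G}
    (E : AltExt (Fin d) L) :
    (L ⊔ Subgroup.centralizer (L : Set G)).relIndex (Subgroup.normalizer (L : Set G)) ≤ 2 := by
  classical
  choose s hs hu using fun g : Subgroup.normalizer (L : Set G) =>
    aut_ext hd E (L.normalizerMonoidHom g)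
  have huniq : ∀ (g : Subgroup.normalizer (L : Set G)) (σ : Perm (Fin d)),
      (∀ x, E.π (L.normalizerMonoidHom g x) = σ * E.π x * σ⁻¹) → σ = s g := fun g σ h => hu g σ h
  let f : Subgroup.normalizer (L : Set G) →* Perm (Fin d) :=
    { toFun := s
      map_one' := by
        refine (huniq 1 1 ?_).symm
        intro x
        rw [map_one, MulAut.one_apply]
        group
      map_mul' := by
        intro g h
        refine (huniq (g * h) (s g * s h) ?_).symm
        intro x
        rw [map_mul, MulAut.mul_apply, hs g, hs h]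
        group }
  let χ : Subgroup.normalizer (L : Set G) →* ℤˣ := Perm.sign.comp f
  have hle : χ.ker ≤ (L ⊔ Subgroup.centralizer (L : Set G)).subgroupOf
      (Subgroup.normalizer (L : Set G)) := by
    intro g hg
    have h1 : Perm.sign (s g) = 1 := MonoidHom.mem_ker.mp hg
    have h2 : s g ∈ E.π.range := by
      rw [E.range]
      exact Perm.mem_alternatingGroup.mpr h1
    obtain ⟨y, hy⟩ := h2
    have h3 : L.normalizerMonoidHom g = MulAut.conj y := by
      apply E.aut_unique
      intro x
      rw [hs g, ← hy, MulAut.conj_apply, map_mul, map_mul, map_inv]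
    rw [Subgroup.mem_subgroupOf]
    have h4 : (y : G)⁻¹ * g ∈ Subgroup.centralizer (L : Set G) := by
      rw [Subgroup.mem_centralizer_iff]
      intro x hx
      have h5 := congrArg Subtype.val (DFunLike.congr_fun h3 ⟨x, hx⟩)
      rw [MulAut.conj_apply] at h5
      change g * x * (g : G)⁻¹ = (y : G) * x * (y : G)⁻¹ at h5
      calc x * ((y : G)⁻¹ * g) = (y : G)⁻¹ * ((y : G) * x * (y : G)⁻¹) * g := by group
        _ = (y : G)⁻¹ * (g * x * (g : G)⁻¹) * g := by rw [h5]
        _ = (y : G)⁻¹ * g * x := by group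
    have h6 : (g : G) = y * ((y : G)⁻¹ * g) := by group
    rw [h6]
    exact Subgroup.mul_mem_sup y.2 h4
  have h3 : χ.ker.index ≤ 2 := by
    rw [Subgroup.index_ker]
    refine (Nat.card_le_card_of_injective _ Subtype.val_injective).trans ?_
    rw [Nat.card_eq_fintype_card, Fintype.card_units_int]
  exact (Nat.le_of_dvd (Nat.pos_of_ne_zero Subgroup.index_ne_zero_of_finite)
    (Subgroup.index_dvd_of_le hle)).trans h3

theorem out_ext' {G : Type} [Group G] [Finite G] {d : ℕ} (hd : 7 ≤ d) {L : Subgroup G}
    (hperf : commutator L = ⊤) (iso : L ⧸ Subgroup.center L ≃* alternatingGroup (Fin d)) :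
    (L ⊔ Subgroup.centralizer (L : Set G)).relIndex (Subgroup.normalizer (L : Set G)) ≤ 2 :=
  out_ext hd (extOf hperf iso)

/-- The order of the alternating groups of small degree. -/
theorem card_alt_lt_eight {d : ℕ} (hd : d < 8) :
    Nat.card (alternatingGroup (Fin d)) ≤ 2520 := by
  rcases Nat.lt_or_ge 1 d with h | h
  · have : Nontrivial (Fin d) := Fin.nontrivial_iff_two_le.mpr h
    rw [nat_card_alternatingGroup, Nat.card_eq_fintype_card, Fintype.card_fin]
    interval_cases d <;> decide
  · have h2 : Nat.card (alternatingGroup (Fin d)) ≤ Nat.card (Perm (Fin d)) :=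
      Nat.card_le_card_of_injective _ (alternatingGroup (Fin d)).subtype_injective
    refine h2.trans ?_
    rw [Nat.card_eq_fintype_card, Fintype.card_perm, Fintype.card_fin]
    interval_cases d <;> decide

end Out

end Vale.Agent.P180.R2.H589
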