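import Vale.Agent.P180.R2.H589.Cov.Cnt

set_option linter.unusedSectionVars false

/-!
P180: automorphisms of perfect central extensions of alternating groups.
-/

namespace Vale.Agent.P180.R2.H589

open Equiv Finset
open scoped commutatorElement

namespace AltExt

variable {α : Type} [Fintype α] [DecidableEq α] {L : Type} [Group L] (E : AltExt α L)
  {L' : Type} [Group L'] (E' : AltExt α L')

/-- Uniqueness of lifts. -/
theorem hom_unique (hL : commutator L = ⊤) {f f' : L →* L'} (h : ∀ x, E'.π (f x) = E'.π (f' x)) : f = f' := by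
  have hk : ∀ x, E'.π (f x * (f' x)⁻¹) = 1 := by
    intro x
    rw [map_mul, map_inv, h, mul_inv_cancel]
  let χ : L →* Subgroup.center L' :=
    { toFun := fun x => ⟨f x * (f' x)⁻¹, E'.mem_center (hk x)⟩
      map_one' := by
        apply Subtype.ext
        show f 1 * (f' 1)⁻¹ = 1
        rw [map_one, map_one, inv_one, mul_one]
      map_mul' := by
        intro x y
        apply Subtype.ext
        show f (x * y) * (f' (x * y))⁻¹ = f x * (f' x)⁻¹ * (f y * (f' y)⁻¹)
        have h1 := E'.central _ (hk y)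
        rw [map_mul, map_mul, mul_inv_rev]
        calc f x * f y * ((f' y)⁻¹ * (f' x)⁻¹) = f x * ((f y * (f' y)⁻¹) * (f' x)⁻¹) := by group
          _ = f x * ((f' x)⁻¹ * (f y * (f' y)⁻¹)) := by rw [h1]
          _ = _ := by group }
  have h2 := commutator_le_ker (G := L) (A := Subgroup.center L') (fun x y => Subtype.ext
    ((Subgroup.mem_center_iff.1 y.2 x))) χ
  ext x
  have h3 : x ∈ commutator L := by rw [hL]; trivial
  have h4 : χ x = 1 := h2 h3
  have h5 : f x * (f' x)⁻¹ = 1 := congrArg Subtype.val h4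
  exact mul_inv_eq_one.1 h5

/-- The fibre product. -/
def fib : Subgroup (L × L') where
  carrier := {z | E.π z.1 = E'.π z.2}
  mul_mem' := by
    intro a b ha hb
    show E.π (a.1 * b.1) = E'.π (a.2 * b.2)
    rw [map_mul, map_mul]
    have h1 : E.π a.1 = E'.π a.2 := ha
    have h2 : E.π b.1 = E'.π b.2 := hb
    rw [h1, h2]
  one_mem' := by
    show E.π 1 = E'.π 1
    rw [map_one, map_one]
  inv_mem' := by
    intro a ha
    show E.π a.1⁻¹ = E'.π a.2⁻¹
    rw [map_inv, map_inv]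
    have h1 : E.π a.1 = E'.π a.2 := ha
    rw [h1]

theorem mem_fib {z : L × L'} : z ∈ fib E E' ↔ E.π z.1 = E'.π z.2 := Iff.rfl

theorem comm_fst : ∀ x : L, ∃ m ∈ ⁅fib E E', fib E E'⁆, m.1 = x := by
  have h1 : (fib E E').map (MonoidHom.fst L L') = ⊤ := by
    rw [eq_top_iff]
    intro x _
    obtain ⟨y, hy⟩ := E'.exists_lift (E.sign_π x)
    exact ⟨(x, y), hy.symm, rfl⟩
  have h2 : (⁅fib E E', fib E E'⁆ : Subgroup (L × L')).map (MonoidHom.fst L L') = ⊤ := by
    rw [Subgroup.map_commutator, h1, ← commutator_def, E.perfect]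
  intro x
  have h3 : x ∈ (⁅fib E E', fib E E'⁆ : Subgroup (L × L')).map (MonoidHom.fst L L') := by
    rw [h2]; trivial
  obtain ⟨m, hm, hx⟩ := h3
  exact ⟨m, hm, hx⟩

theorem comm_snd : ∀ y : L', ∃ m ∈ ⁅fib E E', fib E E'⁆, m.2 = y := by
  have h1 : (fib E E').map (MonoidHom.snd L L') = ⊤ := by
    rw [eq_top_iff]
    intro y _
    obtain ⟨x, hx⟩ := E.exists_lift (E'.sign_π y)
    exact ⟨(x, y), hx, rfl⟩
  have h2 : (⁅fib E E', fib E E'⁆ : Subgroup (L × L')).map (MonoidHom.snd L L') = ⊤ := by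
    rw [Subgroup.map_commutator, h1, ← commutator_def, E'.perfect]
  intro x
  have h3 : x ∈ (⁅fib E E', fib E E'⁆ : Subgroup (L × L')).map (MonoidHom.snd L L') := by
    rw [h2]; trivial
  obtain ⟨m, hm, hx⟩ := h3
  exact ⟨m, hm, hx⟩

theorem comm_le_fib : ⁅fib E E', fib E E'⁆ ≤ fib E E' := Subgroup.commutator_le_self _

theorem comm_mul_left' {G : Type*} [Group G] {x c y : G} (hc : ∀ z, c * z = z * c) :
    ⁅x * c, y⁆ = ⁅x, y⁆ := by
  rw [commutatorElement_def, commutatorElement_def]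
  calc x * c * y * (x * c)⁻¹ * y⁻¹ = x * (c * y) * c⁻¹ * x⁻¹ * y⁻¹ := by group
    _ = x * (y * c) * c⁻¹ * x⁻¹ * y⁻¹ := by rw [hc]
    _ = _ := by group

theorem comm_mul_right' {G : Type*} [Group G] {x c y : G} (hc : ∀ z, c * z = z * c) :
    ⁅y, x * c⁆ = ⁅y, x⁆ := by
  rw [commutatorElement_def, commutatorElement_def]
  calc y * (x * c) * y⁻¹ * (x * c)⁻¹ = y * x * (c * y⁻¹) * c⁻¹ * x⁻¹ := by group
    _ = y * x * (y⁻¹ * c) * c⁻¹ * x⁻¹ := by rw [hc]
    _ = _ := by group

/-- The commutator subgroup of the fibre product. -/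
def fibExt : AltExt α (⁅fib E E', fib E E'⁆ : Subgroup (L × L')) where
  π := (E.π.comp (MonoidHom.fst L L')).comp (⁅fib E E', fib E E'⁆ : Subgroup (L × L')).subtype
  range := by
    rw [← E.range]
    ext σ
    constructor
    · rintro ⟨m, rfl⟩
      exact ⟨m.1.1, rfl⟩
    · rintro ⟨x, rfl⟩
      obtain ⟨m, hm, hx⟩ := comm_fst E E' x
      exact ⟨⟨m, hm⟩, by rw [← hx]; rfl⟩
  central := by
    rintro ⟨m, hm⟩ h ⟨m', hm'⟩
    have h1 : E.π m.1 = 1 := h
    have h2 : E'.π m.2 = 1 := by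
      rw [← (comm_le_fib E E' hm : E.π m.1 = E'.π m.2)]
      exact h1
    apply Subtype.ext
    apply Prod.ext
    · exact E.central _ h1 _
    · exact E'.central _ h2 _
  perfect := by
    have h1 : (⁅fib E E', fib E E'⁆ : Subgroup (L × L')) ≤
        ⁅(⁅fib E E', fib E E'⁆ : Subgroup (L × L')), (⁅fib E E', fib E E'⁆ : Subgroup (L × L'))⁆ := by
      rw [Subgroup.commutator_le]
      intro m1 h1 m2 h2
      have key : ∀ m ∈ fib E E', ∃ m' ∈ (⁅fib E E', fib E E'⁆ : Subgroup (L × L')), ∃ c : L × L',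
          (∀ z, c * z = z * c) ∧ m = m' * c := by
        intro m hm
        obtain ⟨m', hm', hx⟩ := comm_fst E E' m.1
        refine ⟨m', hm', m'⁻¹ * m, ?_, by group⟩
        have e1 : (m'⁻¹ * m).1 = 1 := by
          show m'.1⁻¹ * m.1 = 1
          rw [hx, inv_mul_cancel]
        have e2 : E'.π (m'⁻¹ * m).2 = 1 := by
          have h3 : m'⁻¹ * m ∈ fib E E' :=
            Subgroup.mul_mem _ (Subgroup.inv_mem _ (comm_le_fib E E' hm')) hm
          have h4 : E.π (m'⁻¹ * m).1 = E'.π (m'⁻¹ * m).2 := h3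
          rw [← h4, e1, map_one]
        intro z
        apply Prod.ext
        · show (m'⁻¹ * m).1 * z.1 = z.1 * (m'⁻¹ * m).1
          rw [e1, one_mul, mul_one]
        · exact E'.central _ e2 _
      obtain ⟨m1', hm1', c1, hc1, rfl⟩ := key m1 h1
      obtain ⟨m2', hm2', c2, hc2, rfl⟩ := key m2 h2
      rw [comm_mul_left' hc1, comm_mul_right' hc2]
      exact Subgroup.commutator_mem_commutator hm1' hm2'
    apply Subgroup.map_injective (Subgroup.subtype_injective _)
    rw [Subgroup.map_subtype_commutator, ← MonoidHom.range_eq_map, Subgroup.range_subtype]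
    exact le_antisymm (Subgroup.commutator_le_self _) h1

theorem card_eq [Finite L] : Nat.card L = Nat.card (E.π.ker) * Nat.card (alternatingGroup α) := by
  rw [← E.range, ← Nat.card_congr (QuotientGroup.quotientKerEquivRange E.π).toEquiv,
    mul_comm, ← Subgroup.card_eq_card_quotient_mul_card_subgroup]

/-- **The Schur multiplier**: the kernel has at most two elements. -/
theorem card_ker_le [Finite L] (h8 : 8 ≤ Fintype.card α) : Nat.card E.π.ker ≤ 2 := by
  obtain ⟨s, ε, hs⟩ := E.exists_nsec h8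
  rw [E.ker_eq h8 hs, Nat.card_zpowers]
  have h1 : orderOf ε ∣ 2 := by
    rw [orderOf_dvd_iff_pow_eq_one, pow_two, hs.ε_sq]
  exact Nat.le_of_dvd (by norm_num) h1

/-- Two extensions with nontrivial kernels are isomorphic. -/
theorem exists_iso [Finite L] [Finite L'] (h8 : 8 ≤ Fintype.card α) (h : E.π.ker ≠ ⊥)
    (h' : E'.π.ker ≠ ⊥) : ∃ θ : L ≃* L', ∀ x, E'.π (θ x) = E.π x := by
  have h1 := (fibExt E E').card_ker_le h8
  have h2 := (fibExt E E').card_eq
  have h3 := E.card_eq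
  have h4 := E'.card_eq
  have h5 : 1 < Nat.card E.π.ker := by
    rw [Finite.one_lt_card_iff_nontrivial]
    exact (Subgroup.nontrivial_iff_ne_bot _).2 h
  have h6 : 1 < Nat.card E'.π.ker := by
    rw [Finite.one_lt_card_iff_nontrivial]
    exact (Subgroup.nontrivial_iff_ne_bot _).2 h'
  set M := (⁅fib E E', fib E E'⁆ : Subgroup (L × L')) with hM
  have h7 : Nat.card M ≤ Nat.card L := by
    rw [h2, h3]
    exact Nat.mul_le_mul_right _ (by omega)
  have h8 : Nat.card M ≤ Nat.card L' := by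
    rw [h2, h4]
    exact Nat.mul_le_mul_right _ (by omega)
  set p1 : M →* L := (MonoidHom.fst L L').comp M.subtype with hp1
  set p2 : M →* L' := (MonoidHom.snd L L').comp M.subtype with hp2
  have s1 : Function.Surjective p1 := by
    intro x
    obtain ⟨m, hm, hx⟩ := comm_fst E E' x
    exact ⟨⟨m, hm⟩, hx⟩
  have s2 : Function.Surjective p2 := by
    intro x
    obtain ⟨m, hm, hx⟩ := comm_snd E E' x
    exact ⟨⟨m, hm⟩, hx⟩
  have b1 : Function.Bijective p1 :=
    (Nat.bijective_iff_surjective_and_card _).2 ⟨s1, le_antisymm h7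
      (Nat.card_le_card_of_surjective _ s1)⟩
  have b2 : Function.Bijective p2 :=
    (Nat.bijective_iff_surjective_and_card _).2 ⟨s2, le_antisymm h8
      (Nat.card_le_card_of_surjective _ s2)⟩
  refine ⟨(MulEquiv.ofBijective p1 b1).symm.trans (MulEquiv.ofBijective p2 b2), ?_⟩
  intro x
  obtain ⟨m, rfl⟩ := (MulEquiv.ofBijective p1 b1).surjective x
  rw [MulEquiv.trans_apply, MulEquiv.symm_apply_apply]
  show E'.π (m : L × L').2 = E.π (m : L × L').1
  exact ((comm_le_fib E E' m.2 : E.π (m : L × L').1 = E'.π (m : L × L').2)).symm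

/-- Twisting by a permutation. -/
def tw (σ : Perm α) : AltExt α L where
  π := (MulAut.conj σ).toMonoidHom.comp E.π
  range := by
    ext τ
    constructor
    · rintro ⟨x, rfl⟩
      show σ * E.π x * σ⁻¹ ∈ alternatingGroup α
      rw [Perm.mem_alternatingGroup, map_mul, map_mul, map_inv, E.sign_π, mul_one, mul_inv_cancel]
    · intro hτ
      rw [Perm.mem_alternatingGroup] at hτ
      obtain ⟨x, hx⟩ := E.exists_lift (σ := σ⁻¹ * τ * σ) (by
        rw [map_mul, map_mul, map_inv, hτ, mul_one, inv_mul_cancel])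
      refine ⟨x, ?_⟩
      show σ * E.π x * σ⁻¹ = τ
      rw [hx]; group
  central := by
    intro x hx
    apply E.central
    have h1 : σ * E.π x * σ⁻¹ = 1 := hx
    rw [mul_inv_eq_one] at h1
    exact mul_eq_left.1 h1
  perfect := E.perfect

theorem exists_aut [Finite L] (h8 : 8 ≤ Fintype.card α) (h : E.π.ker ≠ ⊥) (σ : Perm α) :
    ∃ θ : L ≃* L, ∀ x, E.π (θ x) = σ * E.π x * σ⁻¹ := by
  apply exists_iso (E.tw σ) E h8 _ h
  intro h1
  apply h
  rw [eq_bot_iff]
  intro x hx
  rw [← h1]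
  show σ * E.π x * σ⁻¹ = 1
  have : E.π x = 1 := hx
  rw [this]; group

theorem aut_unique {θ θ' : MulAut L} (h : ∀ x, E.π (θ x) = E.π (θ' x)) : θ = θ' := by
  have h1 := E.hom_unique E.perfect (f := θ.toMonoidHom) (f' := θ'.toMonoidHom) h
  ext x
  exact DFunLike.congr_fun h1 x

/-- The action of the symmetric group. -/
theorem exists_Θ [Finite L] (h8 : 8 ≤ Fintype.card α) (h : E.π.ker ≠ ⊥) :
    ∃ Θ : Perm α →* MulAut L, ∀ σ x, E.π (Θ σ x) = σ * E.π x * σ⁻¹ := by
  choose Θ hΘ using E.exists_aut h8 h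
  refine ⟨⟨⟨Θ, ?_⟩, ?_⟩, hΘ⟩
  · apply E.aut_unique
    intro x
    rw [hΘ, MulAut.one_apply]
    group
  · intro σ τ
    apply E.aut_unique
    intro x
    show E.π (Θ (σ * τ) x) = E.π (Θ σ (Θ τ x))
    rw [hΘ, hΘ, hΘ]
    group

end AltExt

end Vale.Agent.P180.R2.H589
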