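import Vale.Agent.P180.R2.H589.Cov.Ext

set_option linter.unusedSectionVars false

/-!
P180: the kernel of a perfect central extension of an alternating group has at most two elements.
-/

namespace Vale.Agent.P180.R2.H589

open Equiv Finset
open scoped commutatorElement

namespace AltExt

variable {α : Type} [Fintype α] [DecidableEq α] {L : Type} [Group L] (E : AltExt α L)

theorem Sec.rot {s : α → α → α → L} (h : E.Sec s) {a b c : α} (hab : a ≠ b) (hbc : b ≠ c)
    (hac : a ≠ c) : s b c a = s a b c := by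
  have h1 := h.conj (s a b c) hab hbc hac
  rw [h.π_s hab hbc hac, c3_fst hab hac, c3_snd hac hbc, c3_thd, mul_inv_cancel_right] at h1
  exact h1.symm

/-- Normalised sections over the 3-cycles. -/
structure NSec (s : α → α → α → L) (ε : L) : Prop where
  sec : E.Sec s
  inv : ∀ {a b c}, a ≠ b → b ≠ c → a ≠ c → s a b c * s a c b = 1
  sq : ∀ {a b c}, a ≠ b → b ≠ c → a ≠ c → s a b c * s a b c = s a c b
  εc : ∀ y, ε * y = y * ε
  πε : E.π ε = 1
  ε_sq : ε * ε = 1
  rel : ∀ {t b g a}, t ≠ b → t ≠ g → t ≠ a → b ≠ g → b ≠ a → g ≠ a →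
    s t b g * s t a b = ε * s t a g

theorem exists_nsec (h8 : 8 ≤ Fintype.card α) : ∃ s ε, E.NSec s ε := by
  classical
  obtain ⟨s0, hs⟩ := E.exists_sec h8
  obtain ⟨p, q, r, hpq, hpr, hqr⟩ : ∃ p q r : α, p ≠ q ∧ p ≠ r ∧ q ≠ r := by
    have : 2 < (univ : Finset α).card := by rw [card_univ]; omega
    obtain ⟨p, q, r, -, -, -, h1, h2, h3⟩ := two_lt_card_iff.1 this
    exact ⟨p, q, r, h1, h2, h3⟩
  set x := s0 p q r with hx
  set y := s0 p r q with hy
  set ζ := x * y with hζ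
  set η := x * x * x with hη
  have hπx : E.π x = c3 p q r := hs.π_s hpq hqr hpr
  have hπy : E.π y = c3 p r q := hs.π_s hpr (Ne.symm hqr) hpq
  have hπζ : E.π ζ = 1 := by
    rw [hζ, map_mul, hπx, hπy, c3_mul_c3_rev hpq hqr hpr]
  have hπη : E.π η = 1 := by
    rw [hη, map_mul, map_mul, hπx, c3_sq hpq hqr hpr, c3_mul_c3_rev hpr (Ne.symm hqr) hpq]
  have hζc := E.central ζ hπζ
  have hηc := E.central η hπη
  have hconj : ∀ c, (∀ y, c * y = y * c) → ∀ g : L, g * c * g⁻¹ = c := by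
    intro c hc g
    rw [← hc, mul_inv_cancel_right]
  have hζ' : ∀ {a b c}, a ≠ b → b ≠ c → a ≠ c → s0 a b c * s0 a c b = ζ := by
    intro a b c hab hbc hac
    obtain ⟨g, h1, h2, h3⟩ := E.exists_map3 h8 hpq hqr hpr hab hbc hac
    have e1 := hs.conj g hpq hqr hpr
    have e2 := hs.conj g hpr (Ne.symm hqr) hpq
    rw [h1, h2, h3] at e1 e2
    rw [← hx] at e1
    rw [← hy] at e2
    rw [← e1, ← e2, ← hconj ζ hζc g, hζ]
    group
  have hη' : ∀ {a b c}, a ≠ b → b ≠ c → a ≠ c → s0 a b c * s0 a b c * s0 a b c = η := by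
    intro a b c hab hbc hac
    obtain ⟨g, h1, h2, h3⟩ := E.exists_map3 h8 hpq hqr hpr hab hbc hac
    have e1 := hs.conj g hpq hqr hpr
    rw [h1, h2, h3, ← hx] at e1
    rw [← e1, ← hconj η hηc g, hη]
    group
  -- the relation
  have hrel : η * η = ζ * ζ * ζ := by
    have h1 : y * y * y = η := hη' hpr (Ne.symm hqr) hpq
    have h2 : y = x⁻¹ * ζ := by rw [hζ]; group
    have h3 : ∀ z, ζ * z = z * ζ := hζc
    have h4 : y * y * y = x⁻¹ * x⁻¹ * x⁻¹ * (ζ * ζ * ζ) := by
      rw [h2]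
      calc x⁻¹ * ζ * (x⁻¹ * ζ) * (x⁻¹ * ζ) = x⁻¹ * (ζ * x⁻¹) * (ζ * x⁻¹) * ζ := by group
        _ = x⁻¹ * (x⁻¹ * ζ) * (x⁻¹ * ζ) * ζ := by rw [h3 x⁻¹]
        _ = x⁻¹ * x⁻¹ * (ζ * x⁻¹) * ζ * ζ := by group
        _ = _ := by rw [h3 x⁻¹]; group
    have h5 : η = η⁻¹ * (ζ * ζ * ζ) := by
      rw [← h1] 
      nth_rewrite 1 [h4]
      rw [h1, hη]
      group
    calc η * η = η * (η⁻¹ * (ζ * ζ * ζ)) := by rw [← h5]
      _ = _ := by group
  set w := ζ * η⁻¹ with hw
  have hηc' : ∀ z, η⁻¹ * z = z * η⁻¹ := by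
    intro z
    have := hηc (η⁻¹ * z * η⁻¹)
    calc η⁻¹ * z = η⁻¹ * z * η⁻¹ * η := by group
      _ = η * (η⁻¹ * z * η⁻¹) := this.symm
      _ = _ := by group
  have hwc : ∀ z, w * z = z * w := by
    intro z
    rw [hw, mul_assoc, hηc', ← mul_assoc, hζc, mul_assoc]
  have hww : w * w * ζ = 1 := by
    have e1 : w * w * ζ = ζ * ζ * ζ * (η⁻¹ * η⁻¹) := by
      rw [hw]
      calc ζ * η⁻¹ * (ζ * η⁻¹) * ζ = ζ * (η⁻¹ * ζ) * (η⁻¹ * ζ) := by group
        _ = ζ * (ζ * η⁻¹) * (ζ * η⁻¹) := by rw [hηc' ζ]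
        _ = ζ * ζ * (η⁻¹ * ζ) * η⁻¹ := by group
        _ = _ := by rw [hηc' ζ]; group
    rw [e1, ← hrel]
    group
  have hwww : w * w * w * η = 1 := by
    have e1 : w * w * w * η = w * w * ζ := by
      nth_rewrite 3 [hw]
      group
    rw [e1, hww]
  have hπw : E.π w = 1 := by rw [hw, map_mul, map_inv, hπζ, hπη]; group
  set s : α → α → α → L := fun a b c => w * s0 a b c with hsdef
  have hsec : E.Sec s := by
    refine ⟨?_, ?_⟩
    · intro a b c hab hbc hac
      show E.π (w * s0 a b c) = _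
      rw [map_mul, hπw, one_mul, hs.π_s hab hbc hac]
    · intro g a b c hab hbc hac
      show g * (w * s0 a b c) * g⁻¹ = w * s0 _ _ _
      rw [← mul_assoc, ← hwc, mul_assoc, mul_assoc, ← mul_assoc g, hs.conj g hab hbc hac]
  have hinv : ∀ {a b c}, a ≠ b → b ≠ c → a ≠ c → s a b c * s a c b = 1 := by
    intro a b c hab hbc hac
    show w * s0 a b c * (w * s0 a c b) = 1
    rw [mul_assoc, ← mul_assoc (s0 a b c), ← hwc, mul_assoc w, hζ' hab hbc hac, ← mul_assoc, hww]
  have hcube : ∀ {a b c}, a ≠ b → b ≠ c → a ≠ c → s a b c * s a b c * s a b c = 1 := by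
    intro a b c hab hbc hac
    show w * s0 a b c * (w * s0 a b c) * (w * s0 a b c) = 1
    calc w * s0 a b c * (w * s0 a b c) * (w * s0 a b c)
        = w * (s0 a b c * w) * (s0 a b c * w) * s0 a b c := by group
      _ = w * (w * s0 a b c) * (w * s0 a b c) * s0 a b c := by rw [← hwc (s0 a b c)]
      _ = w * w * (s0 a b c * w) * s0 a b c * s0 a b c := by group
      _ = w * w * (w * s0 a b c) * s0 a b c * s0 a b c := by rw [← hwc (s0 a b c)]
      _ = w * w * w * (s0 a b c * s0 a b c * s0 a b c) := by group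
      _ = 1 := by rw [hη' hab hbc hac, hwww]
  have hsq : ∀ {a b c}, a ≠ b → b ≠ c → a ≠ c → s a b c * s a b c = s a c b := by
    intro a b c hab hbc hac
    have h1 := hcube hab hbc hac
    have h2 := hinv hab hbc hac
    calc s a b c * s a b c = s a b c * s a b c * (s a b c * s a c b) := by rw [h2, mul_one]
      _ = (s a b c * s a b c * s a b c) * s a c b := by group
      _ = _ := by rw [h1, one_mul]
  -- the constant `ε`
  obtain ⟨o, hop, hoq, hor⟩ : ∃ o : α, p ≠ o ∧ q ≠ o ∧ r ≠ o := by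
    have h1 : 1 ≤ (({p, q, r} : Finset α)ᶜ).card := by
      have := card_rest3 h8 p q r
      omega
    obtain ⟨o, ho⟩ := card_pos.1 h1
    simp only [mem_compl, mem_insert, mem_singleton, not_or] at ho
    exact ⟨o, Ne.symm ho.1, Ne.symm ho.2.1, Ne.symm ho.2.2⟩
  set ε := s p q r * s p o q * (s p o r)⁻¹ with hε
  have hπε : E.π ε = 1 := by
    rw [hε, map_mul, map_mul, map_inv, hsec.π_s hpq hqr hpr, hsec.π_s hop (Ne.symm hoq) hpq,
      hsec.π_s hop (Ne.symm hor) hpr, c3_mul hpq hpr hop hqr hoq hor, mul_inv_cancel]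
  have hεc := E.central ε hπε
  have hrel4 : ∀ {t b g a}, t ≠ b → t ≠ g → t ≠ a → b ≠ g → b ≠ a → g ≠ a →
      s t b g * s t a b = ε * s t a g := by
    intro t b g a htb htg hta hbg hba hga
    obtain ⟨u, h1, h2, h3, h4⟩ := E.exists_map4 h8 hpq hpr hop hqr hoq hor htb htg hta hbg hba hga
    have e1 := hsec.conj u hpq hqr hpr
    have e2 := hsec.conj u hop (Ne.symm hoq) hpq
    have e3 := hsec.conj u hop (Ne.symm hor) hpr
    rw [h1, h2, h3] at e1
    rw [h1, h4, h2] at e2
    rw [h1, h4, h3] at e3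
    rw [← e1, ← e2, ← e3, ← hconj ε hεc u, hε]
    group
  refine ⟨s, ε, hsec, hinv, hsq, hεc, hπε, ?_, hrel4⟩
  -- `ε ^ 2 = 1`
  have h1 := hrel4 hpq hpr hop hqr hoq hor
  have h2 := hrel4 hpr hpq hop (Ne.symm hqr) hor hoq
  -- `s p q r * s p o q = ε * s p o r`, `s p r q * s p o r = ε * s p o q`
  have h3 : s p q r * s p r q = 1 := hinv hpq hqr hpr
  have h4 : s p o r = ε * (ε * s p o r) := by
    calc s p o r = s p q r * s p r q * s p o r := by rw [h3, one_mul]
      _ = s p q r * (ε * s p o q) := by rw [mul_assoc, h2]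
      _ = ε * (s p q r * s p o q) := by rw [← mul_assoc, ← hεc, mul_assoc]
      _ = _ := by rw [h1]
  rw [← mul_assoc] at h4
  exact (mul_right_cancel ((one_mul _).trans h4)).symm

section Count

variable {s : α → α → α → L} {ε : L}

/-- The subgroup generated by the lifts of the 3-cycles over `F`. -/
def KF (s : α → α → α → L) (ε : L) (F : Finset α) : Subgroup L :=
  Subgroup.closure ({x | ∃ a ∈ F, ∃ b ∈ F, ∃ c ∈ F, a ≠ b ∧ b ≠ c ∧ a ≠ c ∧ x = s a b c} ∪ {ε})

theorem s_mem_KF {F : Finset α} {a b c : α} (ha : a ∈ F) (hb : b ∈ F) (hc : c ∈ F) (hab : a ≠ b)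
    (hbc : b ≠ c) (hac : a ≠ c) : s a b c ∈ KF s ε F :=
  Subgroup.subset_closure (Or.inl ⟨a, ha, b, hb, c, hc, hab, hbc, hac, rfl⟩)

theorem ε_mem_KF {F : Finset α} : ε ∈ KF s ε F := Subgroup.subset_closure (Or.inr rfl)

/-- The union of the cosets. -/
def InU (s : α → α → α → L) (ε : L) (F : Finset α) (t : α) (x : L) : Prop :=
  x ∈ KF s ε F ∨ ∃ b ∈ F, ∃ a ∈ F, a ≠ b ∧ ∃ κ ∈ KF s ε F, x = κ * s t a b

theorem coset_eq (hs : E.NSec s ε) {F : Finset α} {t : α} (ht : t ∉ F) {a a' b : α} (ha : a ∈ F)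
    (ha' : a' ∈ F) (hb : b ∈ F) (hab : a ≠ b) (hab' : a' ≠ b) :
    ∃ κ ∈ KF s ε F, s t a b = κ * s t a' b := by
  have hta : t ≠ a := fun h => ht (h ▸ ha)
  have hta' : t ≠ a' := fun h => ht (h ▸ ha')
  have htb : t ≠ b := fun h => ht (h ▸ hb)
  by_cases h : a = a'
  · subst h
    exact ⟨1, Subgroup.one_mem _, by rw [one_mul]⟩
  · -- `s t a b * s t b a' = ε * s b a' a`
    have h1 : s t a b = s b t a := (hs.sec.rot E (Ne.symm htb) hta (Ne.symm hab))
    have h2 : s t b a' = s b a' t := (hs.sec.rot E htb (Ne.symm hab') hta').symm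
    have h3 := hs.rel (t := b) (b := t) (g := a) (a := a') (Ne.symm htb) (Ne.symm hab)
      (Ne.symm hab') hta hta' h
    refine ⟨ε * s b a' a, Subgroup.mul_mem _ ε_mem_KF (s_mem_KF hb ha' ha (Ne.symm hab')
      (Ne.symm h) (Ne.symm hab)), ?_⟩
    rw [← h3, ← h1, ← h2]
    have h4 := hs.inv htb (Ne.symm hab') hta'
    rw [mul_assoc, h4, mul_one]

theorem InU_mul (hs : E.NSec s ε) {F : Finset α} {t : α} (ht : t ∉ F) {x : L}
    (hx : InU s ε F t x) {a b c : α} (ha : a ∈ insert t F) (hb : b ∈ insert t F)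
    (hc : c ∈ insert t F) (hab : a ≠ b) (hbc : b ≠ c) (hac : a ≠ c) :
    InU s ε F t (x * s a b c) := by
  -- it suffices to treat the elements with `t` in the first place
  have hne : ∀ {i}, i ∈ F → t ≠ i := fun {i} hi h => ht (h ▸ hi)
  have key : ∀ a ∈ F, ∀ b ∈ F, a ≠ b → InU s ε F t (x * s t a b) := by
    intro a ha b hb hab
    rcases hx with hx | ⟨g, hg, u, hu, hug, κ, hκ, rfl⟩
    · exact Or.inr ⟨b, hb, a, ha, hab, x, hx, rfl⟩
    · by_cases h1 : g = a
      · subst h1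
        obtain ⟨κ', hκ', he⟩ := E.coset_eq hs ht hu hb hg hug (Ne.symm hab)
        left
        rw [he, mul_assoc, mul_assoc κ', hs.inv (hne hb) (Ne.symm hab) (hne hg), mul_one]
        exact Subgroup.mul_mem _ hκ hκ'
      · by_cases h2 : g = b
        · subst h2
          obtain ⟨κ', hκ', he⟩ := E.coset_eq hs ht hu ha hg hug hab
          right
          refine ⟨a, ha, g, hg, Ne.symm hab, κ * κ', Subgroup.mul_mem _ hκ hκ', ?_⟩
          rw [he, mul_assoc, mul_assoc κ', hs.sq (hne ha) hab (hne hg), ← mul_assoc]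
        · obtain ⟨κ', hκ', he⟩ := E.coset_eq hs ht hu hb hg hug (Ne.symm h2)
          right
          refine ⟨g, hg, a, ha, Ne.symm h1, κ * κ' * ε, Subgroup.mul_mem _
            (Subgroup.mul_mem _ hκ hκ') ε_mem_KF, ?_⟩
          have h3 := hs.rel (t := t) (b := b) (g := g) (a := a) (hne hb) (hne hg) (hne ha)
            (Ne.symm h2) (Ne.symm hab) h1
          rw [he, mul_assoc, mul_assoc κ', h3]
          group
  rw [mem_insert] at ha hb hc
  rcases ha with rfl | ha
  · exact key b (hb.resolve_left (Ne.symm hab)) c (hc.resolve_left (Ne.symm hac)) hbc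
  · rcases hb with rfl | hb
    · have h1 : s a b c = s b c a := (hs.sec.rot E hab hbc hac).symm
      rw [h1]
      exact key c (hc.resolve_left (Ne.symm hbc)) a ha (Ne.symm hac)
    · rcases hc with rfl | hc
      · have h1 : s a b c = s c a b := hs.sec.rot E (Ne.symm hac) hab (Ne.symm hbc)
        rw [h1]
        exact key a ha b hb hab
      · -- all in `F`
        have hmem : s a b c ∈ KF s ε F := s_mem_KF ha hb hc hab hbc hac
        rcases hx with hx | ⟨g, hg, u, hu, hug, κ, hκ, rfl⟩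
        · exact Or.inl (Subgroup.mul_mem _ hx hmem)
        · right
          have h1 := hs.sec.conj ((s a b c)⁻¹) (hne hu) hug (hne hg)
          have hinvπ : E.π (s a b c)⁻¹ = c3 a c b := by
            rw [map_inv, hs.sec.π_s hab hbc hac, inv_eq_iff_mul_eq_one, c3_mul_c3_rev hab hbc hac]
          have hF : ∀ i ∈ F, c3 a c b i ∈ F := by
            intro i hi
            by_cases h1 : i = a
            · subst h1; rw [c3_fst hac hab]; exact hc
            by_cases h2 : i = c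
            · subst h2; rw [c3_snd hab (Ne.symm hbc)]; exact hb
            by_cases h3 : i = b
            · subst h3; rw [c3_thd]; exact ha
            rw [c3_of_ne h1 h2 h3]; exact hi
          rw [inv_inv, hinvπ, c3_of_ne (hne ha) (hne hc) (hne hb)] at h1
          refine ⟨c3 a c b g, hF g hg, c3 a c b u, hF u hu, fun h => hug ((c3 a c b).injective h),
            κ * s a b c, Subgroup.mul_mem _ hκ hmem, ?_⟩
          rw [← h1]
          group

theorem KF_insert (hs : E.NSec s ε) {F : Finset α} {t : α} (ht : t ∉ F) {x : L}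
    (hx : x ∈ KF s ε (insert t F)) : InU s ε F t x := by
  have hgen : ∀ x, InU s ε F t x → ∀ y ∈ ({x | ∃ a ∈ insert t F, ∃ b ∈ insert t F, ∃ c ∈ insert t F,
      a ≠ b ∧ b ≠ c ∧ a ≠ c ∧ x = s a b c} ∪ {ε} : Set L), InU s ε F t (x * y) := by
    rintro x hx y (⟨a, ha, b, hb, c, hc, hab, hbc, hac, rfl⟩ | rfl)
    · exact E.InU_mul hs ht hx ha hb hc hab hbc hac
    · rcases hx with hx | ⟨g, hg, u, hu, hug, κ, hκ, rfl⟩
      · exact Or.inl (Subgroup.mul_mem _ hx ε_mem_KF)
      · refine Or.inr ⟨g, hg, u, hu, hug, κ * y, Subgroup.mul_mem _ hκ ε_mem_KF, ?_⟩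
        rw [mul_assoc, ← hs.εc, mul_assoc]
  refine Subgroup.closure_induction_right (p := fun x _ => InU s ε F t x) ?_ ?_ ?_ hx
  · exact Or.inl (Subgroup.one_mem _)
  · intro x _ y hy h
    exact hgen x h y hy
  · intro x _ y hy h
    apply hgen x h
    rcases hy with ⟨a, ha, b, hb, c, hc, hab, hbc, hac, rfl⟩ | rfl
    · left
      refine ⟨a, ha, c, hc, b, hb, hac, Ne.symm hbc, hab, ?_⟩
      rw [inv_eq_iff_mul_eq_one]
      exact hs.inv hab hbc hac
    · right
      rw [Set.mem_singleton_iff, inv_eq_iff_mul_eq_one]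
      exact hs.ε_sq

theorem card_KF_insert [Finite L] (hs : E.NSec s ε) {F : Finset α} {t : α} (ht : t ∉ F)
    (hF : 2 ≤ F.card) : Nat.card (KF s ε (insert t F)) ≤ (F.card + 1) * Nat.card (KF s ε F) := by
  classical
  have hnb : ∀ b : α, ∃ a ∈ F, a ≠ b := by
    intro b
    exact exists_mem_ne hF b
  choose nb hnbF hnb using hnb
  let φ : Option F × KF s ε F → L := fun z => match z.1 with
    | none => z.2
    | some b => z.2 * s t (nb b) b
  have hφ : ∀ x : KF s ε (insert t F), ∃ z, φ z = x := by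
    rintro ⟨x, hx⟩
    rcases E.KF_insert hs ht hx with h | ⟨b, hb, a, ha, hab, κ, hκ, rfl⟩
    · exact ⟨(none, ⟨x, h⟩), rfl⟩
    · obtain ⟨κ', hκ', he⟩ := E.coset_eq hs ht ha (hnbF b) hb hab (hnb b)
      refine ⟨(some ⟨b, hb⟩, ⟨κ * κ', Subgroup.mul_mem _ hκ hκ'⟩), ?_⟩
      show κ * κ' * s t (nb b) b = κ * s t a b
      rw [he, mul_assoc]
  choose ψ hψ using hφ
  have hinj : Function.Injective ψ := by
    intro x y hxy
    apply Subtype.ext
    rw [← hψ x, ← hψ y, hxy]
  have h1 := Nat.card_le_card_of_injective ψ hinj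
  rw [Nat.card_prod] at h1
  have h2 : Nat.card (Option F) = F.card + 1 := by
    rw [Nat.card_eq_fintype_card, Fintype.card_option, Fintype.card_coe]
  rwa [h2] at h1

theorem card_KF [Finite L] (hs : E.NSec s ε) : ∀ n : ℕ, ∀ F : Finset α, F.card = n + 2 →
    2 * Nat.card (KF s ε F) ≤ (n + 2).factorial * Nat.card (Subgroup.zpowers ε) := by
  intro n
  induction n with
  | zero =>
    intro F hF
    have h1 : KF s ε F ≤ Subgroup.zpowers ε := by
      unfold KF
      rw [Subgroup.closure_le]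
      rintro x (⟨a, ha, b, hb, c, hc, hab, hbc, hac, rfl⟩ | rfl)
      · exfalso
        have h2 : ({a, b, c} : Finset α) ⊆ F := by
          intro i hi
          simp only [mem_insert, mem_singleton] at hi
          rcases hi with rfl | rfl | rfl <;> assumption
        have h3 := card_le_card h2
        rw [card_eq_three.2 ⟨a, b, c, hab, hac, hbc, rfl⟩] at h3
        omega
      · exact Subgroup.mem_zpowers _
    have h2 := Nat.card_le_card_of_injective _ (Subgroup.inclusion_injective h1)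
    have h3 : (0 + 2).factorial = 2 := rfl
    rw [h3]
    omega
  | succ n ih =>
    intro F hF
    obtain ⟨t, ht⟩ : F.Nonempty := by rw [← card_pos]; omega
    have h1 : insert t (F.erase t) = F := insert_erase ht
    have h2 : (F.erase t).card = n + 2 := by rw [card_erase_of_mem ht]; omega
    have h3 := E.card_KF_insert hs (F := F.erase t) (t := t) (notMem_erase t F) (by omega)
    rw [h1, h2] at h3
    have h4 := ih (F.erase t) h2
    have h5 : (n + 1 + 2).factorial = (n + 2 + 1) * (n + 2).factorial := rfl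
    rw [h5]
    calc 2 * Nat.card (KF s ε F) ≤ 2 * ((n + 2 + 1) * Nat.card (KF s ε (F.erase t))) :=
          Nat.mul_le_mul_left _ h3
      _ = (n + 2 + 1) * (2 * Nat.card (KF s ε (F.erase t))) := by ring
      _ ≤ (n + 2 + 1) * ((n + 2).factorial * Nat.card (Subgroup.zpowers ε)) :=
          Nat.mul_le_mul_left _ h4
      _ = _ := by ring

theorem exists_KF_mul (hs : E.NSec s ε) (x : L) :
    ∃ κ ∈ KF s ε univ, ∃ c, E.π c = 1 ∧ x = κ * c := by
  have h1 : alternatingGroup α ≤ (KF s ε univ).map E.π := by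
    rw [← Equiv.Perm.closure_three_cycles_eq_alternating, Subgroup.closure_le]
    intro g hg
    obtain ⟨a, ha⟩ : g.support.Nonempty := by
      rw [← card_pos, Perm.IsThreeCycle.card_support hg]; norm_num
    have h2 := (Perm.IsThreeCycle.eq_swap_mul_swap_iff_mem_support hg).2 ha
    have h3 := (Perm.IsThreeCycle.nodup_iff_mem_support hg).2 ha
    simp only [List.nodup_cons, List.mem_cons, List.not_mem_nil, or_false, not_or,
      not_false_eq_true, List.nodup_nil, and_true] at h3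
    refine ⟨s a (g a) (g (g a)), s_mem_KF (mem_univ _) (mem_univ _) (mem_univ _) h3.1.1 h3.2
      h3.1.2, ?_⟩
    rw [hs.sec.π_s h3.1.1 h3.2 h3.1.2]
    exact h2.symm
  obtain ⟨κ, hκ, he⟩ := h1 (E.sign_π x : E.π x ∈ alternatingGroup α)
  refine ⟨κ, hκ, κ⁻¹ * x, ?_, by group⟩
  rw [map_mul, map_inv, he, inv_mul_cancel]

theorem comm_mul_left {x c y : L} (hc : ∀ z, c * z = z * c) : ⁅x * c, y⁆ = ⁅x, y⁆ := by
  rw [commutatorElement_def, commutatorElement_def]
  calc x * c * y * (x * c)⁻¹ * y⁻¹ = x * (c * y) * c⁻¹ * x⁻¹ * y⁻¹ := by group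
    _ = x * (y * c) * c⁻¹ * x⁻¹ * y⁻¹ := by rw [hc]
    _ = _ := by group

theorem comm_mul_right {x c y : L} (hc : ∀ z, c * z = z * c) : ⁅y, x * c⁆ = ⁅y, x⁆ := by
  rw [commutatorElement_def, commutatorElement_def]
  calc y * (x * c) * y⁻¹ * (x * c)⁻¹ = y * x * (c * y⁻¹) * c⁻¹ * x⁻¹ := by group
    _ = y * x * (y⁻¹ * c) * c⁻¹ * x⁻¹ := by rw [hc]
    _ = _ := by group

theorem KF_univ (hs : E.NSec s ε) : KF s ε univ = ⊤ := by
  rw [eq_top_iff, ← E.perfect, commutator_def, Subgroup.commutator_le]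
  intro x _ y _
  obtain ⟨κ, hκ, c, hc, rfl⟩ := E.exists_KF_mul hs x
  obtain ⟨κ', hκ', c', hc', rfl⟩ := E.exists_KF_mul hs y
  have h1 := E.central c hc
  have h2 := E.central c' hc'
  have h3 : ⁅κ * c, κ' * c'⁆ = ⁅κ, κ'⁆ := by
    have e1 : ⁅κ * c, κ' * c'⁆ = ⁅κ, κ' * c'⁆ := comm_mul_left h1
    have e2 : ⁅κ, κ' * c'⁆ = ⁅κ, κ'⁆ := comm_mul_right h2
    rw [e1, e2]
  rw [h3, commutatorElement_def]
  exact Subgroup.mul_mem _ (Subgroup.mul_mem _ (Subgroup.mul_mem _ hκ hκ')
    (Subgroup.inv_mem _ hκ)) (Subgroup.inv_mem _ hκ')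

/-- The kernel consists of the powers of `ε`. -/
theorem ker_eq [Finite L] (h8 : 8 ≤ Fintype.card α) (hs : E.NSec s ε) :
    E.π.ker = Subgroup.zpowers ε := by
  have h1 := E.card_KF hs (Fintype.card α - 2) univ (by rw [card_univ]; omega)
  have h2 : Fintype.card α - 2 + 2 = Fintype.card α := by omega
  rw [E.KF_univ hs, h2] at h1
  have hnt : Nontrivial α := by
    rw [← Fintype.one_lt_card_iff_nontrivial]; omega
  have h3 : 2 * Nat.card (alternatingGroup α) = (Fintype.card α).factorial := by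
    rw [two_mul_nat_card_alternatingGroup, Nat.card_eq_fintype_card, Fintype.card_perm]
  have h4 : Nat.card L = Nat.card (E.π.ker) * Nat.card (alternatingGroup α) := by
    rw [← E.range, ← Nat.card_congr (QuotientGroup.quotientKerEquivRange E.π).toEquiv,
      mul_comm, ← Subgroup.card_eq_card_quotient_mul_card_subgroup]
  have h5 : Subgroup.zpowers ε ≤ E.π.ker := by
    rw [Subgroup.zpowers_le]
    exact hs.πε
  have h6 : Nat.card (⊤ : Subgroup L) = Nat.card L := Subgroup.card_top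
  rw [h6, h4, ← h3] at h1
  have h7 : Nat.card E.π.ker ≤ Nat.card (Subgroup.zpowers ε) := by
    have hpos : 0 < 2 * Nat.card (alternatingGroup α) := by
      have : 0 < Nat.card (alternatingGroup α) := Nat.card_pos
      omega
    have h8 : (2 * Nat.card (alternatingGroup α)) * Nat.card E.π.ker ≤
        (2 * Nat.card (alternatingGroup α)) * Nat.card (Subgroup.zpowers ε) := by
      calc (2 * Nat.card (alternatingGroup α)) * Nat.card E.π.ker
          = 2 * (Nat.card E.π.ker * Nat.card (alternatingGroup α)) := by ring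
        _ ≤ _ := h1
    exact Nat.le_of_mul_le_mul_left h8 hpos
  exact (Subgroup.eq_of_le_of_card_ge h5 h7).symm

theorem mem_ker_iff [Finite L] (h8 : 8 ≤ Fintype.card α) (hs : E.NSec s ε) {x : L} :
    E.π x = 1 ↔ x = 1 ∨ x = ε := by
  have h1 : E.π x = 1 ↔ x ∈ Subgroup.zpowers ε := by rw [← E.ker_eq h8 hs]; rfl
  rw [h1]
  constructor
  · rintro ⟨n, rfl⟩
    rcases Int.even_or_odd n with ⟨m, rfl⟩ | ⟨m, rfl⟩
    · left
      show ε ^ (m + m) = 1
      rw [← two_mul, zpow_mul, zpow_two, hs.ε_sq, one_zpow]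
    · right
      show ε ^ (2 * m + 1) = ε
      rw [zpow_add, zpow_mul, zpow_two, hs.ε_sq, one_zpow, one_mul, zpow_one]
  · rintro (rfl | rfl)
    · exact Subgroup.one_mem _
    · exact Subgroup.mem_zpowers _

end Count

end AltExt

end Vale.Agent.P180.R2.H589
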