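import Vale.Agent.P180.R2.H589.Cov.SpinDim

/-!
P180: the corner property for perfect central extensions of alternating groups, `p` odd.
-/

set_option linter.all false

namespace Vale.Agent.P180.R2.H589

open Equiv Vale.Agent.P180 Vale.Agent.P180.H768.Gd Vale.Agent.P180.R2.H799 Vale.Agent.P180.R2.H12
open scoped commutatorElement

universe u

section

theorem eq_of_card_le_two {A : Type*} [Group A] [Finite A] (h : Nat.card A ≤ 2) {x y : A}
    (hx : x ≠ 1) (hy : y ≠ 1) : x = y := by
  classical
  by_contra hxy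
  have _ := Fintype.ofFinite A
  have h1 : ({1, x, y} : Finset A).card = 3 := by
    rw [Finset.card_eq_three]
    exact ⟨1, x, y, fun h => hx h.symm, fun h => hy h.symm, hxy, rfl⟩
  have h2 := Finset.card_le_univ ({1, x, y} : Finset A)
  rw [h1, ← Nat.card_eq_fintype_card] at h2
  omega

end

variable {k : Type u} [Field k] [IsAlgClosed k] {p : ℕ} [Fact p.Prime] [CharP k p]
  {G : Type} [Group G] [Finite G]

/-- The kernel, as a subgroup of `G`. -/
def KZ {d : ℕ} {S : Subgroup G} (E : AltExt (Fin d) S) : Subgroup G := E.π.ker.map S.subtype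

theorem mem_KZ {d : ℕ} {S : Subgroup G} (E : AltExt (Fin d) S) (x : S) :
    (x : G) ∈ KZ E ↔ E.π x = 1 := by
  constructor
  · rintro ⟨y, hy, hyx⟩
    have h1 : y = x := Subtype.ext hyx
    rw [← h1]
    exact hy
  · intro h
    exact ⟨x, h, rfl⟩

theorem KZ_le {d : ℕ} {S : Subgroup G} (E : AltExt (Fin d) S) : KZ E ≤ S := by
  rintro _ ⟨x, -, rfl⟩
  exact x.2

theorem π_of_central {d : ℕ} (hd : 4 ≤ d) {L : Type} [Group L] (E : AltExt (Fin d) L) {x : L}
    (hx : ∀ y, x * y = y * x) : E.π x = 1 := by
  have hmem : E.π x ∈ alternatingGroup (Fin d) := by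
    rw [← E.range]
    exact ⟨x, rfl⟩
  have h1 : (⟨E.π x, hmem⟩ : alternatingGroup (Fin d)) ∈
      Subgroup.center (alternatingGroup (Fin d)) := by
    rw [Subgroup.mem_center_iff]
    rintro ⟨u, hu⟩
    rw [← E.range] at hu
    obtain ⟨y, rfl⟩ := hu
    apply Subtype.ext
    change E.π y * E.π x = E.π x * E.π y
    rw [← map_mul, ← map_mul, hx]
  rw [alternatingGroup.center_eq_bot (by rw [Nat.card_eq_fintype_card, Fintype.card_fin]; exact hd),
    Subgroup.mem_bot] at h1
  exact congrArg Subtype.val h1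

theorem KZ_conj {d : ℕ} (hd : 8 ≤ d) {S : Subgroup G} (hS : S.Normal) (E : AltExt (Fin d) S)
    {x : G} (hx : x ∈ KZ E) (g : G) : g * x * g⁻¹ ∈ KZ E := by
  have hxS := KZ_le E hx
  have hgx : g * x * g⁻¹ ∈ S := hS.conj_mem x hxS g
  have h1 := (mem_KZ E ⟨x, hxS⟩).mp hx
  refine (mem_KZ E ⟨_, hgx⟩).mpr (π_of_central (by omega) E ?_)
  intro y
  apply Subtype.ext
  change g * x * g⁻¹ * (y : G) = (y : G) * (g * x * g⁻¹)
  have h2 := congrArg Subtype.val (E.central _ h1 ⟨g⁻¹ * y * g⁻¹⁻¹, hS.conj_mem y y.2 g⁻¹⟩)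
  have h3 : x * (g⁻¹ * y * g⁻¹⁻¹) = (g⁻¹ * y * g⁻¹⁻¹) * x := h2
  calc g * x * g⁻¹ * (y : G) = g * (x * (g⁻¹ * y * g⁻¹⁻¹)) * g⁻¹ := by group
    _ = (y : G) * (g * x * g⁻¹) := by rw [h3]; group

theorem KZ_card {d : ℕ} (hd : 8 ≤ d) {S : Subgroup G} (E : AltExt (Fin d) S) :
    Nat.card (KZ E) ≤ 2 := by
  have h1 : Nat.card (KZ E) = Nat.card E.π.ker :=
    Nat.card_congr (E.π.ker.equivMapOfInjective _ S.subtype_injective).symm.toEquiv
  rw [h1]
  exact E.card_ker_le (by rw [Fintype.card_fin]; exact hd)

theorem KZ_eq {d : ℕ} (hd : 8 ≤ d) {S : Subgroup G} (E : AltExt (Fin d) S) {x y : G}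
    (hx : x ∈ KZ E) (hy : y ∈ KZ E) (hx1 : x ≠ 1) (hy1 : y ≠ 1) : x = y := by
  have h1 : (⟨x, hx⟩ : KZ E) = ⟨y, hy⟩ := eq_of_card_le_two (KZ_card hd E)
    (fun h => hx1 (congrArg Subtype.val h)) (fun h => hy1 (congrArg Subtype.val h))
  exact congrArg Subtype.val h1

theorem KZ_central {d : ℕ} (hd : 8 ≤ d) {S : Subgroup G} (hS : S.Normal) (E : AltExt (Fin d) S)
    {x : G} (hx : x ∈ KZ E) (g : G) : x * g = g * x := by
  by_cases hx1 : x = 1
  · rw [hx1, one_mul, mul_one]
  · have h1 : g * x * g⁻¹ = x := by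
      refine KZ_eq hd E (KZ_conj hd hS E hx g) hx ?_ hx1
      intro h
      apply hx1
      rw [mul_inv_eq_one] at h
      exact mul_left_cancel (a := g) (by rw [h, mul_one])
    calc x * g = g * x * g⁻¹ * g := by rw [h1]
      _ = g * x := by group

/-- The corner property for perfect central extensions of alternating groups, `p` odd: the group
`S R`. -/
theorem cor_cov_top {d n : ℕ} (hd : 8 ≤ d) (hp2 : p ≠ 2) {S R : Subgroup G} (hS : S.Normal)
    (hSR : S ⊔ R = ⊤) (E : AltExt (Fin d) S) (hR : IsPGroup p R) (hRn : Nat.card R ≤ n)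
    {e : MonoidAlgebra k G} (he : IsBlockOf S e) (hbr : br R e ≠ 0)
    (h1 : ∃ z ∈ SubAlg k S, z ∈ Fix (cj k G) (S ⊓ R) ∧ e = tr (cj k G) (S ⊓ R) S z)
    (h2 : ∃ z ∈ SubAlg k S, z ∈ Fix (cj k G) R ∧ e = tr (cj k G) R ⊤ z) :
    H954.Cor (CA n) S R e := by
  classical
  have hZn : (KZ E).Normal := ⟨fun x hx g => KZ_conj hd hS E hx g⟩
  set q : G →* G ⧸ KZ E := QuotientGroup.mk' (KZ E) with hq
  have hker : q.ker = KZ E := QuotientGroup.ker_mk' _
  have hqs : Function.Surjective q := QuotientGroup.mk'_surjective _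
  have hkS : q.ker ≤ S := by rw [hker]; exact KZ_le E
  have hc : ∀ x, q x = 1 → ∀ g, x * g = g * x := by
    intro x hx g
    have h3 : x ∈ q.ker := MonoidHom.mem_ker.mpr hx
    rw [hker] at h3
    exact KZ_central hd hS E h3 g
  have h20 : (2 : k) ≠ 0 := by
    intro h
    have h3 : ((2 : ℕ) : k) = 0 := by exact_mod_cast h
    rw [CharP.cast_eq_zero_iff k p] at h3
    exact hp2 ((Nat.prime_dvd_prime_iff_eq (Fact.out : p.Prime) Nat.prime_two).mp h3)
  have hcard : Nat.card q.ker = 1 ∨ Nat.card q.ker = 2 := by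
    have h3 : Nat.card q.ker ≤ 2 := by rw [hker]; exact KZ_card hd E
    have h4 : 0 < Nat.card q.ker := Nat.card_pos
    omega
  have hp : (Nat.card q.ker : k) ≠ 0 := by
    rcases hcard with h | h
    · rw [h, Nat.cast_one]; exact one_ne_zero
    · rw [h]; exact_mod_cast h20
  have hkiff : ∀ x : S, q x = 1 ↔ E.π x = 1 := by
    intro x
    rw [← mem_KZ]
    constructor
    · intro h
      have h3 : (x : G) ∈ q.ker := MonoidHom.mem_ker.mpr h
      rwa [hker] at h3
    · intro h
      rw [← hker] at h
      exact MonoidHom.mem_ker.mp h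
  obtain ⟨φ, hφ, hφS, hφq⟩ := exists_phi E hkiff
  have hε : sq q (1 : MonoidAlgebra k (G ⧸ KZ E)) ∈ ZAlg k S := by
    rw [mem_ZAlg]
    refine ⟨?_, ?_⟩
    · refine SubAlg_mono ?_ (sq_supp (X := ⊥) (Subalgebra.one_mem _))
      intro x hx
      exact hkS (MonoidHom.mem_ker.mpr (Subgroup.mem_bot.mp hx))
    · intro s hs
      rw [sq_cj, map_one]
  have hεε : sq q (1 : MonoidAlgebra k (G ⧸ KZ E)) * sq q 1 = sq q 1 := by
    rw [← sq_mul hp hqs, one_mul]
  have hdich : sq q (1 : MonoidAlgebra k (G ⧸ KZ E)) * e = e ∨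
      sq q (1 : MonoidAlgebra k (G ⧸ KZ E)) * e = 0 := by
    rcases he.primitive (sq q (1 : MonoidAlgebra k (G ⧸ KZ E)) * e)
      (Subalgebra.mul_mem _ hε he.mem)
      (by
        change sq q (1 : MonoidAlgebra k (G ⧸ KZ E)) * e * (sq q 1 * e) = _
        rw [mul_assoc, ← mul_assoc e, ← sq_one_comm e, mul_assoc (sq q 1) e e, he.idem.eq,
          ← mul_assoc, hεε])
      (by rw [mul_assoc, he.idem.eq]) with h | h
    · exact Or.inr h
    · exact Or.inl h
  rcases hdich with hee | hee
  · -- the block belongs to the quotient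
    refine cor_quot hp hqs hc hkS hR hee ?_
    have hes : sq q (tm (RingHom.id k) q e) = e := by rw [sq_tm, hee]
    refine cor_alt (p := p) (d := d) (by omega) ?_ (hR.map q) ?_ ?_
      (block_quot hp hqs hkS hee he) ?_ ?_ ?_
    · exact (MulEquiv.subgroupCongr hφS.symm).trans (MonoidHom.ofInjective hφ).symm
    · exact (Nat.card_le_card_of_surjective _ (q.subgroupMap_surjective R)).trans hRn
    · rintro _ ⟨x, -, rfl⟩ _ ⟨s, hs, rfl⟩
      exact ⟨x * s * x⁻¹, hS.conj_mem s hs x, by rw [map_mul, map_mul, map_inv]⟩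
    · intro h0
      apply hbr
      rw [← hes, br_sq hp hc hR, h0, sq_zero]
    · obtain ⟨z, hz, hzF, hez⟩ := h1
      obtain ⟨z', hz', hz'F, h3⟩ := trace_quot (q := q) (S := S) inf_le_left hkS hz hzF hez
      have h4 : (S ⊓ R).map q = S.map q ⊓ R.map q := by
        apply le_antisymm (Subgroup.map_inf_le _ _ _)
        rintro y ⟨⟨s, hs, hsy⟩, r, hr, rfl⟩
        refine ⟨r, Subgroup.mem_inf.mpr ⟨?_, hr⟩, rfl⟩
        exact ker_mul_of hkS ⟨s, hs, hsy⟩
      rw [h4] at hz'F h3
      exact ⟨z', hz', hz'F, h3⟩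
    · obtain ⟨z, hz, hzF, hez⟩ := h2
      obtain ⟨z', hz', hz'F, h3⟩ := trace_quot (q := q) (S := S) le_top le_top hz hzF hez
      have h4 : (⊤ : Subgroup G).map q = S.map q ⊔ R.map q := by
        rw [← Subgroup.map_sup, hSR]
      rw [h4] at h3
      exact ⟨z', hz', hz'F, h3⟩
  · -- the block is a spin block
    have hbot : E.π.ker ≠ ⊥ := by
      intro hb
      apply he.ne_zero
      have h3 : sq q (1 : MonoidAlgebra k (G ⧸ KZ E)) = 1 := by
        apply ext_coeff
        intro g
        have hk1 : Nat.card q.ker = 1 := by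
          rw [hker, KZ, hb, Subgroup.map_bot]
          exact Subgroup.card_bot
        rw [sq_coeff, hk1, Nat.cast_one, inv_one, one_mul, MonoidAlgebra.one_def,
          MonoidAlgebra.one_def, coeff_single, coeff_single]
        have h4 : (1 = q g) ↔ (1 = g) := by
          constructor
          · intro h
            have h5 : g ∈ q.ker := MonoidHom.mem_ker.mpr h.symm
            rw [hker, KZ, hb, Subgroup.map_bot, Subgroup.mem_bot] at h5
            exact h5.symm
          · rintro rfl
            rw [map_one]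
        simp only [h4]
      rw [h3, one_mul] at hee
      exact hee
    obtain ⟨Γ, iG, iF, SS, ee, hπ, hzz⟩ := E.exists_spin (by rw [Fintype.card_fin]; exact hd) hbot
    letI : Fintype Γ := Fintype.ofFinite Γ
    obtain ⟨z₀, hz₀, hz₀1⟩ : ∃ z₀ ∈ E.π.ker, z₀ ≠ 1 := by
      by_contra hcon
      push Not at hcon
      exact hbot ((Subgroup.eq_bot_iff_forall _).mpr hcon)
    set z : G := (z₀ : G) with hzdef
    have hz1 : z ≠ 1 := fun h => hz₀1 (Subtype.ext h)
    have hzK : z ∈ KZ E := (mem_KZ E z₀).mpr hz₀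
    have hKz : ∀ x, x ∈ KZ E ↔ x = 1 ∨ x = z := by
      intro x
      constructor
      · intro hx
        by_cases hx1 : x = 1
        · exact Or.inl hx1
        · exact Or.inr (KZ_eq hd E hx hzK hx1 hz1)
      · rintro (rfl | rfl)
        · exact Subgroup.one_mem _
        · exact hzK
    have hzc : ∀ g, z * g = g * z := fun g => KZ_central hd hS E hzK g
    have hzsq : z * z = 1 := by
      rcases (hKz (z * z)).mp ((KZ E).mul_mem hzK hzK) with h | h
      · exact h
      · exact absurd (mul_eq_left.mp h) hz1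
    set ζ : MonoidAlgebra k G := MonoidAlgebra.single z (1 : k) with hζ
    have hζζ : ζ * ζ = 1 := by
      rw [hζ, MonoidAlgebra.single_mul_single, hzsq, one_mul, ← MonoidAlgebra.one_def]
    have hζc : ∀ a : MonoidAlgebra k G, ζ * a = a * ζ := by
      intro a
      apply ext_coeff
      intro g
      rw [hζ, MonoidAlgebra.coeff_single_mul_apply, MonoidAlgebra.coeff_mul_single_apply, mul_one,
        one_mul]
      congr 1
      have h3 : z⁻¹ = z := inv_eq_of_mul_eq_one_left hzsq
      rw [h3, hzc]
    have hζe : ζ * e = - e := by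
      have h3 : (1 : MonoidAlgebra k G) + ζ = (Nat.card q.ker : k) • sq q 1 := by
        apply ext_coeff
        intro g
        rw [MonoidAlgebra.coeff_add, Finsupp.add_apply, MonoidAlgebra.coeff_smul,
          Finsupp.smul_apply, sq_coeff, smul_eq_mul, mul_inv_cancel_left₀ hp,
          MonoidAlgebra.one_def, MonoidAlgebra.one_def, hζ, coeff_single, coeff_single,
          coeff_single]
        by_cases hg : g ∈ KZ E
        · have hg' : 1 = q g := by
            rw [← hker] at hg
            exact (MonoidHom.mem_ker.mp hg).symm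
          rw [if_pos hg']
          rcases (hKz g).mp hg with rfl | rfl
          · rw [if_pos rfl, if_neg hz1, add_zero]
          · rw [if_neg (fun h => hz1 h.symm), if_pos rfl, zero_add]
        · have hg' : ¬ 1 = q g := by
            intro h
            apply hg
            rw [← hker]
            exact MonoidHom.mem_ker.mpr h.symm
          rw [if_neg hg', if_neg (fun h => hg (by rw [← h]; exact Subgroup.one_mem _)),
            if_neg (fun h => hg (by rw [← h]; exact hzK)), add_zero]
      have h4 : (1 + ζ) * e = 0 := by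
        rw [h3, smul_mul_assoc, hee, smul_zero]
      rw [add_mul, one_mul] at h4
      exact (neg_eq_of_add_eq_zero_right h4).symm
    obtain ⟨A, F, hA, hF, C⟩ := exists_data_cov (by omega) hS hqs
      (fun x hx y _ => hc x hx y) φ hφ hφS
    obtain ⟨w, hwS, hw, hew⟩ := h2
    obtain ⟨Y, m, β, f, hY1, hY2, hY3, hY4, hY5, hL, hfe, hfR, hspan⟩ := C.exists_one hR hRn hw
      he.idem.eq (by rw [hF]; exact he.mem.1) hew hbr
    rw [hF] at hspan
    refine ⟨m, f, fun l => ?_, hspan⟩
    set B : Subgroup G := CovData.B q A F Y 0 with hB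
    set A' : Subgroup G := CovData.A' q A F Y 0 with hA'
    have hA'B : A' ≤ B := CovData.A'_le Y 0
    have hBS : B ≤ S := by
      rw [hB, CovData.B, hF]
      exact inf_le_left
    let Fs : Finset (Fin d) := Finset.univ.filter fun a => (⟨0, a⟩ : Σ j : Fin 1, Fin d) ∈ Y
    have hmemB : ∀ x : S, (x : G) ∈ B ↔ IsF Fs (E.π x) := by
      intro x
      have h3 : (x : G) ∈ B ↔ q x ∈ A.YY ⊥ Y {0} := by
        rw [hB, CovData.B, hF, Subgroup.mem_inf, Subgroup.mem_comap]
        exact ⟨fun h => h.2, fun h => ⟨x.2, h⟩⟩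
      rw [h3, CovData.YYb_eq, hA]
      have hsingle : ∀ u : alternatingGroup (Fin d),
          (φ.comp (Pi.evalMonoidHom _ 0)).comp (MonoidHom.mulSingle
            (fun j : Fin 1 => alternatingGroup (Fin ((fun _ => d) j))) 0) u = φ u := by
        intro u
        change φ ((Pi.mulSingle 0 u : ∀ j : Fin 1, alternatingGroup (Fin ((fun _ => d) j))) 0) = φ u
        rw [Pi.mulSingle_eq_same]
      constructor
      · rintro ⟨u, hu, hux⟩
        rw [hsingle] at hux
        rw [hφq] at hux
        rw [← hux]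
        intro a ha
        exact hu a fun h => ha (Finset.mem_filter.mpr ⟨Finset.mem_univ _, h⟩)
      · intro h
        have hmem : E.π x ∈ alternatingGroup (Fin d) := by
          rw [← E.range]
          exact ⟨x, rfl⟩
        refine ⟨⟨E.π x, hmem⟩, ?_, ?_⟩
        · intro a ha
          exact h a fun h' => ha (Finset.mem_filter.mp h').2
        · rw [hsingle]
          exact (hφq x ⟨E.π x, hmem⟩).mpr rfl
    have hzB : z ∈ B := by
      rw [hzdef, hmemB, show E.π z₀ = 1 from hz₀]
      intro a _
      rfl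
    have hLl := hL l
    have hfB : f l ∈ SubAlg k B := SubAlg_mono hA'B hLl.mem
    refine ⟨SubAlg_mono hBS hfB, hfR l, hLl.idem, ?_⟩
    -- the idempotent
    set c₂ : k := (2 : k)⁻¹ with hc₂
    have hcc : c₂ * 2 = 1 := inv_mul_cancel₀ h20
    set η : MonoidAlgebra k G := c₂ • (1 - ζ) with hη
    have hηη : η * η = η := by
      have h3 : (1 - ζ) * (1 - ζ) = (2 : k) • (1 - ζ) := by
        rw [sub_mul, mul_sub, mul_sub, hζζ, one_mul, mul_one, one_mul, two_smul]
        abel
      rw [hη, smul_mul_assoc, mul_smul_comm, h3, smul_smul c₂ 2, hcc, one_smul]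
    have hηc : ∀ a : MonoidAlgebra k G, η * a = a * η := by
      intro a
      rw [hη, smul_mul_assoc, mul_smul_comm, sub_mul, mul_sub, one_mul, mul_one, hζc]
    have hζη : ζ * η = - η := by
      rw [hη, mul_smul_comm, mul_sub, hζζ, mul_one, ← smul_neg, neg_sub]
    have hηe : η * e = e := by
      rw [hη, smul_mul_assoc, sub_mul, one_mul, hζe, sub_neg_eq_add, ← two_smul k e, smul_smul,
        hcc, one_smul]
    have hηB : η ∈ SubAlg k B := Subalgebra.smul_mem _ (Subalgebra.sub_mem _
      (Subalgebra.one_mem _) (single_mem_SubAlg hzB 1)) _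
    have hef : e * f l = e * (f l * η) := by
      rw [← hηc, ← mul_assoc, ← hηc, hηe]
    rw [hef]
    clear_value η
    -- the embedding
    let ψ : SS.ΓA →* G := S.subtype.comp ee.symm.toMonoidHom
    have hψ : Function.Injective ψ := S.subtype_injective.comp ee.symm.injective
    have hψS : ψ.range = S := by
      ext x
      constructor
      · rintro ⟨y, rfl⟩
        exact (ee.symm y).2
      · intro hx
        exact ⟨ee ⟨x, hx⟩, by
          change ((ee.symm (ee ⟨x, hx⟩) : S) : G) = x
          rw [MulEquiv.symm_apply_apply]⟩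
    have hψz : ψ ⟨SS.z, SS.z_mem_ΓA⟩ = z := by
      have h3 : ee z₀ = ⟨SS.z, SS.z_mem_ΓA⟩ := Subtype.ext (hzz z₀ hz₀ hz₀1)
      change ((ee.symm ⟨SS.z, SS.z_mem_ΓA⟩ : S) : G) = z
      rw [← h3, MulEquiv.symm_apply_apply]
    have hψB : ∀ x : SS.ΓA, ψ x ∈ B ↔ x ∈ SS.AF Fs := by
      intro x
      have h3 : ψ x = ((ee.symm x : S) : G) := rfl
      rw [h3, hmemB, ← hπ, MulEquiv.apply_symm_apply]
      unfold SpinStr.AF
      rw [Subgroup.mem_subgroupOf, SS.mem_ΓF]
    have hdim := spin_dim (p := p) h20 hψ hψS hψz hψB hBS hR he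
      (f := f l * η) (Subalgebra.mul_mem _ hfB hηB)
      (by rw [mul_assoc, ← mul_assoc η, hηc, mul_assoc (f l) η η, hηη, ← mul_assoc, hLl.idem])
      (by
        rw [← hηc, ← mul_assoc]
        change ζ * η * f l = -(η * f l)
        rw [hζη, neg_mul])
      (by
        -- elements of `B`
        intro y hy
        obtain ⟨Zp, hZp, hZA, hZc, -, hcor⟩ := hLl.corner
        have hZ1 : ∀ x ∈ Zp, x = 1 := by
          intro x hx
          have hxB : x ∈ B := hA'B (hZA hx)
          have hxS : x ∈ S := hBS hxB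
          have hqx : q x = 1 := by
            have h3 : q x ∈ A.YY ⊥ Y {0} := by
              rw [← C.A'_map (hY1 0)]
              exact ⟨x, hZA hx, rfl⟩
            rw [CovData.YYb_eq] at h3
            obtain ⟨u, hu, hux⟩ := h3
            have h4 : u = 1 := by
              refine AF_center Y 0 (hY1 0) hu fun v hv => ?_
              have h5 : (A.ι.comp (MonoidHom.mulSingle _ 0)) v ∈ A.YY ⊥ Y {0} := by
                rw [CovData.YYb_eq]
                exact ⟨v, hv, rfl⟩
              rw [← C.A'_map (hY1 0)] at h5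
              obtain ⟨y, hy, hyv⟩ := h5
              have h6 := congrArg q (hZc x hx y hy)
              rw [map_mul, map_mul, ← hux, hyv, ← map_mul, ← map_mul] at h6
              have h7 := congrFun (A.inj h6) 0
              change (Pi.mulSingle 0 (u * v) : ∀ j : Fin 1, alternatingGroup (Fin ((fun _ => d) j))) 0
                = (Pi.mulSingle 0 (v * u) : ∀ j : Fin 1, alternatingGroup (Fin ((fun _ => d) j))) 0
                at h7
              rwa [Pi.mulSingle_eq_same, Pi.mulSingle_eq_same] at h7
            rw [← hux, h4, map_one]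
          have hxK : x ∈ KZ E := by
            rw [← hker]
            exact MonoidHom.mem_ker.mpr hqx
          by_contra hx1
          have hxz := KZ_eq hd E hxK hzK hx1 hz1
          obtain ⟨a, ha⟩ := hZp ⟨x, hx⟩
          have ha : x ^ p ^ a = 1 := congrArg Subtype.val ha
          have h3 : x ^ 2 = 1 := by rw [hxz, pow_two z, hzsq]
          have h4 := Nat.dvd_gcd (orderOf_dvd_of_pow_eq_one ha) (orderOf_dvd_of_pow_eq_one h3)
          have h5 : Nat.Coprime (p ^ a) 2 := by
            apply Nat.Coprime.pow_left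
            rw [Nat.coprime_primes (Fact.out : p.Prime) Nat.prime_two]
            exact hp2
          rw [h5] at h4
          exact hx1 (orderOf_eq_one_iff.mp (Nat.dvd_one.mp h4))
        have key : ∀ y ∈ SubAlg k A', ∃ c : k, f l * y * f l = c • f l := by
          intro y hy
          obtain ⟨w, hw, hwe⟩ := hcor y hy
          have hw1 : w = (w.coeff 1) • (1 : MonoidAlgebra k G) := by
            apply ext_coeff
            intro x
            rw [MonoidAlgebra.coeff_smul, Finsupp.smul_apply, MonoidAlgebra.one_def, coeff_single,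
              smul_eq_mul]
            by_cases hx : 1 = x
            · rw [if_pos hx, mul_one, hx]
            · rw [if_neg hx, mul_zero]
              by_contra h5
              exact hx (hZ1 x (hw x h5)).symm
          refine ⟨w.coeff 1, ?_⟩
          rw [hwe]
          conv_lhs => rw [hw1]
          rw [smul_mul_assoc, one_mul]
        have key2 : ∀ x ∈ B, ∃ y ∈ A', x = y ∨ x = z * y := by
          intro x hx
          have h3 : q x ∈ A'.map q := by
            rw [hA', C.A'_map (hY1 0), ← C.B_map]
            exact ⟨x, hx, rfl⟩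
          obtain ⟨y, hy, hyx⟩ := h3
          have h4 : x * y⁻¹ ∈ KZ E := by
            rw [← hker]
            exact MonoidHom.mem_ker.mpr (by rw [map_mul, map_inv, hyx, mul_inv_cancel])
          refine ⟨y, hy, ?_⟩
          rcases (hKz _).mp h4 with h5 | h5
          · left
            rwa [mul_inv_eq_one] at h5
          · right
            rw [← h5, inv_mul_cancel_right]
        refine SuppIn.induction (P := fun y => ∃ c : k, f l * η * y * (f l * η) =
          c • (f l * η)) hy ?_ ?_ ?_
        · exact ⟨0, by rw [mul_zero, zero_mul, zero_smul]⟩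
        · rintro a b ⟨c, hc⟩ ⟨c', hc'⟩
          exact ⟨c + c', by rw [mul_add, add_mul, hc, hc', add_smul]⟩
        · intro x hx r
          obtain ⟨y, hy, hxy⟩ := key2 x hx
          obtain ⟨c, hc⟩ := key (MonoidAlgebra.single y 1) (single_mem_SubAlg hy 1)
          have e1 : ∀ v : MonoidAlgebra k G, f l * η * v * (f l * η) = f l * v * f l * η := by
            intro v
            calc f l * η * v * (f l * η) = f l * (η * v) * (f l * η) := by
                  simp only [mul_assoc]
              _ = f l * v * (η * f l) * η := by rw [hηc v]; simp only [mul_assoc]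
              _ = f l * v * f l * (η * η) := by rw [hηc (f l)]; simp only [mul_assoc]
              _ = f l * v * f l * η := by rw [hηη]
          rcases hxy with rfl | rfl
          · refine ⟨r * c, ?_⟩
            rw [e1, mul_smul_comm, smul_mul_assoc, smul_mul_assoc, hc, smul_mul_assoc, smul_smul]
          · refine ⟨-(r * c), ?_⟩
            have e2 : (MonoidAlgebra.single (z * y) (1 : k)) = ζ * MonoidAlgebra.single y 1 := by
              rw [hζ, MonoidAlgebra.single_mul_single, one_mul]
            have e3 : f l * (r • (ζ * MonoidAlgebra.single y 1)) * f l * η =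
                r • (f l * MonoidAlgebra.single y 1 * f l * (ζ * η)) := by
              rw [mul_smul_comm, smul_mul_assoc, smul_mul_assoc]
              congr 1
              calc f l * (ζ * MonoidAlgebra.single y 1) * f l * η =
                  (f l * ζ) * (MonoidAlgebra.single y 1 * f l * η) := by simp only [mul_assoc]
                _ = ζ * (f l * MonoidAlgebra.single y 1 * f l * η) := by
                  rw [← hζc]; simp only [mul_assoc]
                _ = (f l * MonoidAlgebra.single y 1 * f l * η) * ζ := hζc _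
                _ = f l * MonoidAlgebra.single y 1 * f l * (ζ * η) := by
                  rw [hζc η]; simp only [mul_assoc]
            rw [e1, e2, e3, hc, hζη, mul_neg, smul_neg, smul_mul_assoc, smul_smul, neg_smul])
      h1
    refine hdim.trans (CC_le_CA ?_ ?_)
    · refine le_trans (Nat.card_le_card_of_injective
        (fun x : R.comap ψ => (⟨ψ x, x.2⟩ : R)) ?_) hRn
      intro x y h
      have h9 : ψ x = ψ y := congrArg (fun r : R => (r : G)) h
      exact Subtype.ext (hψ h9)
    · refine le_trans (le_of_eq ?_) (hY2 0)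
      rw [Nat.card_eq_fintype_card, Fintype.card_subtype]
      congr 1
      ext a
      simp [Fs]


/-- The extension as a subgroup of a larger subgroup. -/
def AltExt.congr {α : Type} [Fintype α] [DecidableEq α] {L L' : Type} [Group L] [Group L']
    (E : AltExt α L) (e : L' ≃* L) : AltExt α L' where
  π := E.π.comp e.toMonoidHom
  range := by
    rw [← E.range]
    ext y
    constructor
    · rintro ⟨x, rfl⟩
      exact ⟨e x, rfl⟩
    · rintro ⟨x, rfl⟩
      exact ⟨e.symm x, congrArg E.π (e.apply_symm_apply x)⟩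
  central := by
    intro x hx y
    apply e.injective
    rw [map_mul, map_mul]
    exact E.central (e x) hx (e y)
  perfect := by
    rw [eq_top_iff]
    intro x _
    have h1 : e x ∈ commutator L := by rw [E.perfect]; exact Subgroup.mem_top _
    have h2 : (commutator L).map e.symm.toMonoidHom = commutator L' := by
      rw [commutator_def, Subgroup.map_commutator, commutator_def]
      have h3 : (⊤ : Subgroup L).map e.symm.toMonoidHom = ⊤ :=
        Subgroup.map_top_of_surjective _ e.symm.surjective
      rw [h3]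
    rw [← h2]
    exact ⟨e x, h1, e.symm_apply_apply x⟩

/-- **The corner property for perfect central extensions of alternating groups, `p` odd.** -/
theorem cor_cov {k : Type u} [Field k] [IsAlgClosed k] {p : ℕ} [Fact p.Prime] [CharP k p]
    {G : Type} [Group G] [Finite G] {d n : ℕ} (hd : 8 ≤ d) (hp2 : p ≠ 2) {S R : Subgroup G}
    (E : AltExt (Fin d) S)
    (hR : IsPGroup p R) (hRn : Nat.card R ≤ n) (hRS : ∀ x ∈ R, ∀ s ∈ S, x * s * x⁻¹ ∈ S)
    {e : MonoidAlgebra k G} (he : IsBlockOf S e) (hbr : br R e ≠ 0)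
    (h1 : ∃ z ∈ SubAlg k S, z ∈ Fix (cj k G) (S ⊓ R) ∧ e = tr (cj k G) (S ⊓ R) S z)
    (h2 : ∃ z ∈ SubAlg k S, z ∈ Fix (cj k G) R ∧ e = tr (cj k G) R (S ⊔ R) z) :
    H954.Cor (CA n) S R e := by
  set K : Subgroup G := S ⊔ R with hK
  have hSK : S ≤ K := le_sup_left
  have hRK : R ≤ K := le_sup_right
  have hSm : (S.subgroupOf K).map K.subtype = S := Subgroup.map_subgroupOf_eq_of_le hSK
  have hRm : (R.subgroupOf K).map K.subtype = R := Subgroup.map_subgroupOf_eq_of_le hRK
  have hKm : (⊤ : Subgroup K).map K.subtype = K := by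
    rw [← MonoidHom.range_eq_map, Subgroup.range_subtype]
  obtain ⟨e', rfl⟩ := exists_incl K (SubAlg_mono hSK he.mem.1)
  have hSn : (S.subgroupOf K).Normal := by
    rw [Subgroup.normal_subgroupOf_iff_le_normalizer hSK]
    refine sup_le Subgroup.le_normalizer ?_
    intro x hx
    rw [Subgroup.mem_normalizer_iff]
    intro s
    constructor
    · exact fun hs => hRS x hx s hs
    · intro hs
      have h3 := hRS x⁻¹ (R.inv_mem hx) _ hs
      have h4 : x⁻¹ * (x * s * x⁻¹) * x⁻¹⁻¹ = s := by group
      rwa [h4] at h3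
  have key : H954.Cor (CA n) (S.subgroupOf K) (R.subgroupOf K) e' := by
    refine cor_cov_top (p := p) hd hp2 hSn ?_
      (E.congr (Subgroup.subgroupOfEquivOfLe hSK)) ?_ ?_
      ((isBlockOf_subgroupOf_iff hSK e').mpr he) ?_ ?_ ?_
    · apply Subgroup.map_injective K.subtype_injective
      rw [Subgroup.map_sup, hSm, hRm, hKm]
    · exact hR.comap_of_injective K.subtype K.subtype_injective
    · rw [Nat.card_congr (Subgroup.subgroupOfEquivOfLe hRK).toEquiv]
      exact hRn
    · intro h0
      apply hbr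
      rw [← hRm, br_incl, h0, map_zero]
    · obtain ⟨z, hz, hzF, hez⟩ := h1
      obtain ⟨z', rfl⟩ := exists_incl K (SubAlg_mono hSK hz)
      have hm : (S.subgroupOf K ⊓ R.subgroupOf K).map K.subtype = S ⊓ R :=
        Subgroup.map_subgroupOf_eq_of_le (inf_le_left.trans hSK)
      have hz'F : z' ∈ Fix (cj k K) (S.subgroupOf K ⊓ R.subgroupOf K) := by
        rw [← incl_mem_Fix_iff, hm]; exact hzF
      refine ⟨z', ?_, hz'F, ?_⟩
      · rw [← incl_mem_SubAlg_iff, hSm]; exact hz
      · apply incl_injective (k := k) K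
        rw [incl_tr_gen K hz'F, hm, hSm]
        exact hez
    · obtain ⟨z, hz, hzF, hez⟩ := h2
      obtain ⟨z', rfl⟩ := exists_incl K (SubAlg_mono hSK hz)
      have hz'F : z' ∈ Fix (cj k K) (R.subgroupOf K) := by
        rw [← incl_mem_Fix_iff, hRm]; exact hzF
      refine ⟨z', ?_, hz'F, ?_⟩
      · rw [← incl_mem_SubAlg_iff, hSm]; exact hz
      · apply incl_injective (k := k) K
        rw [incl_tr_gen K hz'F, hRm, hKm]
        exact hez
  have h3 := cor_incl key
  rwa [hSm, hRm] at h3

end Vale.Agent.P180.R2.H589
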