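import Mathlib

set_option linter.unusedSectionVars false

/-!
P180: perfect central extensions of alternating groups: canonical lifts of the 3-cycles.
-/

namespace Vale.Agent.P180.R2.H589

open Equiv Finset

/-- A perfect central extension of the alternating group on `α`. -/
structure AltExt (α : Type) [Fintype α] [DecidableEq α] (L : Type) [Group L] where
  /-- the projection -/
  π : L →* Perm α
  range : π.range = alternatingGroup α
  central : ∀ x, π x = 1 → ∀ y, x * y = y * x
  perfect : commutator L = ⊤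

theorem commutator_le_ker {G A : Type*} [Group G] [Group A] (hA : ∀ x y : A, x * y = y * x)
    (φ : G →* A) : commutator G ≤ φ.ker := by
  rw [commutator_def, Subgroup.commutator_le]
  intro x _ y _
  rw [MonoidHom.mem_ker, commutatorElement_def, map_mul, map_mul, map_mul, map_inv, map_inv,
    hA (φ x) (φ y), mul_inv_cancel_right, mul_inv_cancel]

section Perm

variable {α : Type} [Fintype α] [DecidableEq α]

theorem exists_even_map {n : ℕ} (x y : Fin n → α) (hx : Function.Injective x)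
    (hy : Function.Injective y) (h : n + 2 ≤ Fintype.card α) :
    ∃ σ : Perm α, Perm.sign σ = 1 ∧ ∀ i, σ (x i) = y i := by
  obtain ⟨σ, hσ⟩ := Equiv.Perm.exists_extending_pair x y hx hy
  rcases Int.units_eq_one_or (Perm.sign σ) with h1 | h1
  · exact ⟨σ, h1, hσ⟩
  · have h2 : 2 ≤ (univ.image x)ᶜ.card := by
      rw [card_compl, card_image_of_injective _ hx, card_univ, Fintype.card_fin]
      omega
    obtain ⟨a, ha, b, hb, hab⟩ := one_lt_card.1 h2
    refine ⟨σ * swap a b, ?_, ?_⟩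
    · rw [Perm.sign_mul, h1, Perm.sign_swap hab]; rfl
    · intro i
      have hxi : x i ∈ univ.image x := mem_image_of_mem _ (mem_univ i)
      rw [mem_compl] at ha hb
      rw [Perm.mul_apply, swap_apply_of_ne_of_ne, hσ]
      · rintro rfl; exact ha hxi
      · rintro rfl; exact hb hxi

/-- The 3-cycle `a → b → c → a`. -/
def c3 (a b c : α) : Perm α := swap a b * swap b c

theorem c3_conj (σ : Perm α) (a b c : α) : σ * c3 a b c * σ⁻¹ = c3 (σ a) (σ b) (σ c) := by
  unfold c3
  have h1 := Equiv.swap_apply_apply σ a b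
  have h2 := Equiv.swap_apply_apply σ b c
  rw [h1, h2]
  group

theorem c3_fst {a b c : α} (hab : a ≠ b) (hac : a ≠ c) : c3 a b c a = b := by
  unfold c3
  rw [Perm.mul_apply, swap_apply_of_ne_of_ne hab hac, swap_apply_left]

theorem c3_snd {a b c : α} (hac : a ≠ c) (hbc : b ≠ c) : c3 a b c b = c := by
  unfold c3
  rw [Perm.mul_apply, swap_apply_left, swap_apply_of_ne_of_ne hac.symm hbc.symm]

theorem c3_thd (a b c : α) : c3 a b c c = a := by
  unfold c3
  rw [Perm.mul_apply, swap_apply_right, swap_apply_right]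

theorem c3_of_ne {a b c x : α} (ha : x ≠ a) (hb : x ≠ b) (hc : x ≠ c) : c3 a b c x = x := by
  unfold c3
  rw [Perm.mul_apply, swap_apply_of_ne_of_ne hb hc, swap_apply_of_ne_of_ne ha hb]

theorem sign_c3 {a b c : α} (hab : a ≠ b) (hbc : b ≠ c) : Perm.sign (c3 a b c) = 1 := by
  unfold c3
  rw [Perm.sign_mul, Perm.sign_swap hab, Perm.sign_swap hbc]; rfl

theorem c3_mul_c3_rev {a b c : α} (hab : a ≠ b) (hbc : b ≠ c) (hac : a ≠ c) :
    c3 a b c * c3 a c b = 1 := by
  ext x
  rw [Perm.mul_apply, Perm.one_apply]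
  by_cases h1 : x = a
  · subst h1
    rw [c3_fst hac hab, c3_thd]
  by_cases h2 : x = c
  · subst h2
    rw [c3_snd hab (Ne.symm hbc), c3_snd hac hbc]
  by_cases h3 : x = b
  · subst h3
    rw [c3_thd, c3_fst hab hac]
  rw [c3_of_ne h1 h2 h3, c3_of_ne h1 h3 h2]

theorem c3_rot {a b c : α} (hab : a ≠ b) (hbc : b ≠ c) (hac : a ≠ c) : c3 b c a = c3 a b c := by
  have h1 := c3_conj (c3 a b c) a b c
  rw [c3_fst hab hac, c3_snd hac hbc, c3_thd] at h1
  rw [← h1]
  group

theorem c3_sq {a b c : α} (hab : a ≠ b) (hbc : b ≠ c) (hac : a ≠ c) :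
    c3 a b c * c3 a b c = c3 a c b := by
  ext x
  rw [Perm.mul_apply]
  by_cases h1 : x = a
  · subst h1
    rw [c3_fst hab hac, c3_snd hac hbc, c3_fst hac hab]
  by_cases h2 : x = c
  · subst h2
    rw [c3_thd, c3_fst hab hac, c3_snd hab (Ne.symm hbc)]
  by_cases h3 : x = b
  · subst h3
    rw [c3_snd hac hbc, c3_thd, c3_thd]
  rw [c3_of_ne h1 h3 h2, c3_of_ne h1 h3 h2, c3_of_ne h1 h2 h3]

/-- The basic relation. -/
theorem c3_mul {t b g a : α} (htb : t ≠ b) (htg : t ≠ g) (hta : t ≠ a) (hbg : b ≠ g) (hba : b ≠ a)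
    (hga : g ≠ a) : c3 t b g * c3 t a b = c3 t a g := by
  ext x
  rw [Perm.mul_apply]
  by_cases h1 : x = t
  · subst h1
    rw [c3_fst hta htb, c3_of_ne (Ne.symm hta) (Ne.symm hba) (Ne.symm hga), c3_fst hta htg]
  by_cases h2 : x = a
  · subst h2
    rw [c3_snd htb (Ne.symm hba), c3_snd htg hbg, c3_snd htg (Ne.symm hga)]
  by_cases h3 : x = b
  · subst h3
    rw [c3_thd, c3_fst htb htg, c3_of_ne h1 h2 hbg]
  by_cases h4 : x = g
  · subst h4
    rw [c3_of_ne h1 h2 h3, c3_thd, c3_thd]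
  rw [c3_of_ne h1 h2 h3, c3_of_ne h1 h3 h4, c3_of_ne h1 h2 h4]

end Perm

namespace AltExt

variable {α : Type} [Fintype α] [DecidableEq α] {L : Type} [Group L] (E : AltExt α L)

theorem sign_π (x : L) : Perm.sign (E.π x) = 1 := by
  have h1 : E.π x ∈ E.π.range := ⟨x, rfl⟩
  rw [E.range] at h1
  exact h1

theorem exists_lift {σ : Perm α} (hσ : Perm.sign σ = 1) : ∃ x, E.π x = σ := by
  have h1 : σ ∈ alternatingGroup α := hσ
  rw [← E.range] at h1
  exact h1

theorem exists_map {n : ℕ} (x y : Fin n → α) (hx : Function.Injective x)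
    (hy : Function.Injective y) (h : n + 2 ≤ Fintype.card α) :
    ∃ g : L, ∀ i, E.π g (x i) = y i := by
  obtain ⟨σ, h1, h2⟩ := exists_even_map x y hx hy h
  obtain ⟨g, rfl⟩ := E.exists_lift h1
  exact ⟨g, h2⟩

theorem mem_center {x : L} (hx : E.π x = 1) : x ∈ Subgroup.center L := by
  rw [Subgroup.mem_center_iff]
  exact fun g => (E.central x hx g).symm

/-- The elements over permutations fixing all points outside `F`. -/
def HF (F : Finset α) : Subgroup L where
  carrier := {h | ∀ x ∉ F, E.π h x = x}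
  mul_mem' := by
    intro a b ha hb x hx
    rw [map_mul, Perm.mul_apply, hb x hx, ha x hx]
  one_mem' := by
    intro x _
    rw [map_one]; rfl
  inv_mem' := by
    intro a ha x hx
    rw [map_inv, Perm.inv_eq_iff_eq]
    exact (ha x hx).symm

theorem mem_HF {F : Finset α} {h : L} : h ∈ E.HF F ↔ ∀ x ∉ F, E.π h x = x := Iff.rfl

theorem ker_mem_HF (F : Finset α) {h : L} (hh : E.π h = 1) : h ∈ E.HF F := by
  intro x _
  rw [hh]; rfl

/-- Homomorphisms to abelian groups which kill the kernel are trivial. -/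
theorem hom_trivial {F : Finset α} (hF : 5 ≤ F.card) {A : Type} [Group A]
    (hA : ∀ x y : A, x * y = y * x) (χ : E.HF F →* A) (hker : ∀ h : E.HF F, E.π h = 1 → χ h = 1) (h : E.HF F) : χ h = 1 := by
  classical
  have hl : ∀ σ : alternatingGroup F, ∃ x : E.HF F, E.π x = (alternatingGroup.ofSubtype F σ : Perm α) := by
    intro σ
    obtain ⟨x, hx⟩ := E.exists_lift (alternatingGroup.ofSubtype F σ).2
    refine ⟨⟨x, ?_⟩, hx⟩
    intro y hy
    rw [hx, alternatingGroup.coe_ofSubtype, Perm.ofSubtype_apply_of_not_mem _ hy]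
  choose l hl using hl
  have hdiff : ∀ x y : E.HF F, E.π x = E.π y → χ x = χ y := by
    intro x y hxy
    have h1 : χ (x * y⁻¹) = 1 := by
      apply hker
      rw [Subgroup.coe_mul, Subgroup.coe_inv, map_mul, map_inv, hxy, mul_inv_cancel]
    rw [map_mul, map_inv, mul_inv_eq_one] at h1
    exact h1
  let φ : alternatingGroup F →* A :=
    { toFun := fun σ => χ (l σ)
      map_one' := by
        apply hker
        rw [hl, map_one]
        rfl
      map_mul' := by
        intro σ τ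
        rw [← map_mul]
        apply hdiff
        rw [Subgroup.coe_mul, map_mul, hl, hl, hl, map_mul]
        rfl }
  have hperf : commutator (alternatingGroup F) = ⊤ := by
    apply commutator_alternatingGroup_eq_top
    rw [Nat.card_eq_fintype_card, Fintype.card_coe]
    exact hF
  have hφ : ∀ σ, φ σ = 1 := by
    intro σ
    have h1 : σ ∈ commutator (alternatingGroup F) := by rw [hperf]; trivial
    exact commutator_le_ker hA φ h1
  obtain ⟨σ, hσ⟩ : ∃ σ : alternatingGroup F, E.π h = (alternatingGroup.ofSubtype F σ : Perm α) := by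
    have h1 : (⟨E.π h, E.sign_π h⟩ : alternatingGroup α) ∈ (alternatingGroup.ofSubtype F).range := by
      rw [alternatingGroup.mem_range_ofSubtype_iff]
      intro x hx
      by_contra hc
      rw [Perm.mem_support] at hx
      exact hx (h.2 x hc)
    obtain ⟨σ, hσ⟩ := h1
    exact ⟨σ, by rw [hσ]⟩
  have h2 := hφ σ
  rw [hdiff h (l σ) (by rw [hσ, hl])]
  exact h2

/-- Elements over disjoint sets of points commute. -/
theorem comm_of_fix {F : Finset α} (hF : 5 ≤ F.card) {x : L} (hx : ∀ i ∈ F, E.π x i = i) :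
    ∀ h ∈ E.HF F, h * x = x * h := by
  have hcomm : ∀ h ∈ E.HF F, E.π (h * x * h⁻¹ * x⁻¹) = 1 := by
    intro h hh
    have h1 : E.π h * E.π x = E.π x * E.π h := by
      ext i
      rw [Perm.mul_apply, Perm.mul_apply]
      by_cases hi : i ∈ F
      · rw [hx i hi]
        have h2 : E.π h i ∈ F := by
          by_contra hc
          have h3 := hh _ hc
          have h4 := (E.π h).injective h3
          rw [h4] at hc
          exact hc hi
        rw [hx _ h2]
      · rw [hh i hi]
        apply hh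
        intro hc
        have h2 := hx _ hc
        have h3 := (E.π x).injective h2
        rw [h3] at hc
        exact hi hc
    rw [map_mul, map_mul, map_mul, map_inv, map_inv, h1]
    group
  let χ : E.HF F →* Subgroup.center L :=
    { toFun := fun h => ⟨h * x * (h : L)⁻¹ * x⁻¹, E.mem_center (hcomm h h.2)⟩
      map_one' := by
        apply Subtype.ext
        show (1 : L) * x * (1 : L)⁻¹ * x⁻¹ = 1
        group
      map_mul' := by
        intro h h'
        apply Subtype.ext
        show (h * h' : L) * x * (h * h' : L)⁻¹ * x⁻¹ =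
          (h * x * (h : L)⁻¹ * x⁻¹) * (h' * x * (h' : L)⁻¹ * x⁻¹)
        have h1 := E.central _ (hcomm h' h'.2)
        calc (h * h' : L) * x * (h * h' : L)⁻¹ * x⁻¹
            = h * ((h' * x * (h' : L)⁻¹ * x⁻¹) * (x * (h : L)⁻¹ * x⁻¹)) := by group
          _ = h * ((x * (h : L)⁻¹ * x⁻¹) * (h' * x * (h' : L)⁻¹ * x⁻¹)) := by rw [h1]
          _ = _ := by group }
  intro h hh
  have hk : ∀ h : E.HF F, E.π h = 1 → χ h = 1 := by
    intro h hh
    apply Subtype.ext
    show (h : L) * x * (h : L)⁻¹ * x⁻¹ = 1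
    rw [E.central _ hh x]
    group
  have h1 : χ ⟨h, hh⟩ = 1 := E.hom_trivial hF (fun x y => Subtype.ext
    ((Subgroup.mem_center_iff.1 y.2 x))) χ hk ⟨h, hh⟩
  have h2 : h * x * h⁻¹ * x⁻¹ = 1 := congrArg Subtype.val h1
  rw [mul_inv_eq_one, mul_inv_eq_iff_eq_mul] at h2
  exact h2

/-- The complement of three points. -/
theorem card_rest3 (h8 : 8 ≤ Fintype.card α) (a b c : α) : 5 ≤ (({a, b, c} : Finset α)ᶜ).card := by
  rw [card_compl]
  have := card_le_three (a := a) (b := b) (c := c)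
  omega

theorem inj3 {a b c : α} (hab : a ≠ b) (hbc : b ≠ c) (hac : a ≠ c) :
    Function.Injective ![a, b, c] := by
  intro i j hij
  fin_cases i <;> fin_cases j <;> simp_all

theorem inj4 {a b c d : α} (hab : a ≠ b) (hac : a ≠ c) (had : a ≠ d) (hbc : b ≠ c) (hbd : b ≠ d)
    (hcd : c ≠ d) : Function.Injective ![a, b, c, d] := by
  intro i j hij
  fin_cases i <;> fin_cases j <;> simp_all

theorem exists_map3 (h8 : 8 ≤ Fintype.card α) {a b c a' b' c' : α} (hab : a ≠ b) (hbc : b ≠ c)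
    (hac : a ≠ c) (hab' : a' ≠ b') (hbc' : b' ≠ c') (hac' : a' ≠ c') :
    ∃ g : L, E.π g a = a' ∧ E.π g b = b' ∧ E.π g c = c' := by
  obtain ⟨g, hg⟩ := E.exists_map ![a, b, c] ![a', b', c'] (inj3 hab hbc hac)
    (inj3 hab' hbc' hac') (by omega)
  exact ⟨g, hg 0, hg 1, hg 2⟩

theorem exists_map4 (h8 : 8 ≤ Fintype.card α) {a b c d a' b' c' d' : α} (hab : a ≠ b) (hac : a ≠ c)
    (had : a ≠ d) (hbc : b ≠ c) (hbd : b ≠ d) (hcd : c ≠ d) (hab' : a' ≠ b') (hac' : a' ≠ c')
    (had' : a' ≠ d') (hbc' : b' ≠ c') (hbd' : b' ≠ d') (hcd' : c' ≠ d') :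
    ∃ g : L, E.π g a = a' ∧ E.π g b = b' ∧ E.π g c = c' ∧ E.π g d = d' := by
  obtain ⟨g, hg⟩ := E.exists_map ![a, b, c, d] ![a', b', c', d'] (inj4 hab hac had hbc hbd hcd)
    (inj4 hab' hac' had' hbc' hbd' hcd') (by omega)
  exact ⟨g, hg 0, hg 1, hg 2, hg 3⟩

/-- An equivariant section over the 3-cycles. -/
structure Sec (s : α → α → α → L) : Prop where
  π_s : ∀ {a b c}, a ≠ b → b ≠ c → a ≠ c → E.π (s a b c) = c3 a b c
  conj : ∀ (g : L) {a b c}, a ≠ b → b ≠ c → a ≠ c →
    g * s a b c * g⁻¹ = s (E.π g a) (E.π g b) (E.π g c)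

theorem exists_sec (h8 : 8 ≤ Fintype.card α) : ∃ s, E.Sec s := by
  classical
  obtain ⟨p, q, r, hpq, hpr, hqr⟩ : ∃ p q r : α, p ≠ q ∧ p ≠ r ∧ q ≠ r := by
    have : 2 < (univ : Finset α).card := by rw [card_univ]; omega
    obtain ⟨p, q, r, -, -, -, h1, h2, h3⟩ := two_lt_card_iff.1 this
    exact ⟨p, q, r, h1, h2, h3⟩
  obtain ⟨x, hx⟩ := E.exists_lift (sign_c3 hpq hqr)
  have hxfix : ∀ i ∈ (({p, q, r} : Finset α)ᶜ), E.π x i = i := by
    intro i hi
    simp only [mem_compl, mem_insert, mem_singleton, not_or] at hi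
    rw [hx]
    exact c3_of_ne hi.1 hi.2.1 hi.2.2
  -- well-definedness
  have hwd : ∀ g g' : L, E.π g p = E.π g' p → E.π g q = E.π g' q → E.π g r = E.π g' r →
      g * x * g⁻¹ = g' * x * g'⁻¹ := by
    intro g g' h1 h2 h3
    have h4 : g'⁻¹ * g ∈ E.HF (({p, q, r} : Finset α)ᶜ) := by
      intro i hi
      rw [mem_compl, not_not] at hi
      simp only [mem_insert, mem_singleton] at hi
      rw [map_mul, map_inv, Perm.mul_apply, Perm.inv_eq_iff_eq]
      rcases hi with rfl | rfl | rfl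
      · exact h1
      · exact h2
      · exact h3
    have h5 := E.comm_of_fix (card_rest3 h8 p q r) hxfix _ h4
    calc g * x * g⁻¹ = g' * ((g'⁻¹ * g) * x) * g⁻¹ := by group
      _ = g' * (x * (g'⁻¹ * g)) * g⁻¹ := by rw [h5]
      _ = _ := by group
  have hex : ∀ a b c : α, ∃ g : L, a ≠ b → b ≠ c → a ≠ c →
      E.π g p = a ∧ E.π g q = b ∧ E.π g r = c := by
    intro a b c
    by_cases h : a ≠ b ∧ b ≠ c ∧ a ≠ c
    · obtain ⟨g, hg⟩ := E.exists_map3 h8 hpq hqr hpr h.1 h.2.1 h.2.2
      exact ⟨g, fun _ _ _ => hg⟩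
    · exact ⟨1, fun h1 h2 h3 => absurd ⟨h1, h2, h3⟩ h⟩
  choose G hG using hex
  refine ⟨fun a b c => G a b c * x * (G a b c)⁻¹, ?_, ?_⟩
  · intro a b c hab hbc hac
    obtain ⟨h1, h2, h3⟩ := hG a b c hab hbc hac
    rw [map_mul, map_mul, map_inv, hx, c3_conj, h1, h2, h3]
  · intro g a b c hab hbc hac
    obtain ⟨h1, h2, h3⟩ := hG a b c hab hbc hac
    obtain ⟨h1', h2', h3'⟩ := hG (E.π g a) (E.π g b) (E.π g c) (fun h => hab ((E.π g).injective h))
      (fun h => hbc ((E.π g).injective h)) (fun h => hac ((E.π g).injective h))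
    have h4 := hwd (g * G a b c) (G (E.π g a) (E.π g b) (E.π g c)) (by
      rw [map_mul, Perm.mul_apply, h1, h1']) (by
      rw [map_mul, Perm.mul_apply, h2, h2']) (by
      rw [map_mul, Perm.mul_apply, h3, h3'])
    rw [← h4]
    group

end AltExt

end Vale.Agent.P180.R2.H589
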