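import Vale.Agent.P180.R2.H589.Cov.Aut
import Vale.Agent.P180.R2.H589.Spin.Str

set_option linter.unusedSectionVars false

/-!
P180: the double cover of the symmetric group over a perfect central extension of the alternating
group.
-/

namespace Vale.Agent.P180.R2.H589

open Equiv Finset
open scoped commutatorElement

namespace AltExt

variable {α : Type} [Fintype α] [DecidableEq α] {L : Type} [Group L]

/-- An extension of `L` by a lift of a transposition. -/
structure Pre (E : AltExt α L) (Γ : Type) [Group Γ] where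
  /-- the embedding -/
  j : L →* Γ
  inj : Function.Injective j
  /-- the projection -/
  pr : Γ →* Perm α
  prj : ∀ x, pr (j x) = E.π x
  even : ∀ g, Perm.sign (pr g) = 1 → ∃ x, j x = g
  /-- first point -/
  p : α
  /-- second point -/
  q : α
  hpq : p ≠ q
  /-- the lift -/
  τ0 : Γ
  prτ0 : pr τ0 = swap p q
  sq : τ0 * τ0 = 1

namespace Pre

variable {E : AltExt α L} {Γ : Type} [Group Γ] (P : Pre E Γ) {s : α → α → α → L} {ε : L}

/-- The kernel of the extension is `{1, ε}`. -/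
def Ker (E : AltExt α L) (ε : L) : Prop := ε ≠ 1 ∧ ∀ x, E.π x = 1 ↔ x = 1 ∨ x = ε

theorem ker (hk : Ker E ε) (g : Γ) : P.pr g = 1 ↔ g = 1 ∨ g = P.j ε := by
  constructor
  · intro h
    obtain ⟨x, rfl⟩ := P.even g (by rw [h, Perm.sign_one])
    rw [P.prj, hk.2] at h
    rcases h with rfl | rfl
    · left; rw [map_one]
    · right; rfl
  · rintro (rfl | rfl)
    · rw [map_one]
    · rw [P.prj, hk.2]; exact Or.inr rfl

theorem z_ne (hk : Ker E ε) : P.j ε ≠ 1 := fun h => hk.1 (P.inj (by rw [h, map_one]))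

theorem z_comm (hk : Ker E ε) (g : Γ) : P.j ε * g = g * P.j ε := by
  have h1 : P.pr (g * P.j ε * g⁻¹) = 1 := by
    rw [map_mul, map_mul, map_inv, (P.ker hk _).2 (Or.inr rfl)]
    group
  rcases (P.ker hk _).1 h1 with h | h
  · exfalso
    apply P.z_ne hk
    rw [mul_inv_eq_one] at h
    exact mul_eq_left.1 h
  · rw [mul_inv_eq_iff_eq_mul] at h
    exact h.symm

theorem z_sq (hk : Ker E ε) : P.j ε * P.j ε = 1 := by
  rw [← map_mul]
  have h1 : E.π (ε * ε) = 1 := by
    rw [map_mul, (hk.2 ε).2 (Or.inr rfl), one_mul]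
  rcases (hk.2 _).1 h1 with h | h
  · rw [h, map_one]
  · exact absurd (mul_eq_left.1 h) hk.1

theorem ker_comm (hk : Ker E ε) {g : Γ} (hg : P.pr g = 1) (x : Γ) : g * x = x * g := by
  rcases (P.ker hk g).1 hg with rfl | rfl
  · rw [one_mul, mul_one]
  · exact P.z_comm hk x

theorem card_rest2 (h8 : 8 ≤ Fintype.card α) (a b : α) : 5 ≤ (({a, b} : Finset α)ᶜ).card := by
  rw [card_compl]
  have := card_le_two (a := a) (b := b)
  omega

/-- Even elements fixing `p` and `q` commute with the lift. -/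
theorem comm_even (h8 : 8 ≤ Fintype.card α) (hk : Ker E ε) {x : L} (hp : E.π x P.p = P.p)
    (hq : E.π x P.q = P.q) : P.j x * P.τ0 = P.τ0 * P.j x := by
  set F : Finset α := ({P.p, P.q} : Finset α)ᶜ with hF
  have hmem : ∀ h : L, h ∈ E.HF F ↔ E.π h P.p = P.p ∧ E.π h P.q = P.q := by
    intro h
    rw [mem_HF, hF]
    constructor
    · intro h1
      exact ⟨h1 _ (by simp), h1 _ (by simp)⟩
    · rintro ⟨h1, h2⟩ i hi
      rw [mem_compl, not_not] at hi
      simp only [mem_insert, mem_singleton] at hi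
      rcases hi with rfl | rfl
      · exact h1
      · exact h2
  have hcomm : ∀ h ∈ E.HF F, P.pr (P.τ0 * P.j h * P.τ0⁻¹ * (P.j h)⁻¹) = 1 := by
    intro h hh
    obtain ⟨h1, h2⟩ := (hmem h).1 hh
    have h3 : swap P.p P.q * E.π h = E.π h * swap P.p P.q := by
      have := Equiv.mul_swap_eq_swap_mul (E.π h) P.p P.q
      rw [this, h1, h2]
    rw [map_mul, map_mul, map_mul, map_inv, map_inv, P.prτ0, P.prj, h3]
    group
  let χ : E.HF F →* P.pr.ker :=
    { toFun := fun h => ⟨P.τ0 * P.j h * P.τ0⁻¹ * (P.j h)⁻¹, hcomm h h.2⟩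
      map_one' := by
        apply Subtype.ext
        show P.τ0 * P.j 1 * P.τ0⁻¹ * (P.j 1)⁻¹ = 1
        rw [map_one]
        group
      map_mul' := by
        intro h h'
        apply Subtype.ext
        show P.τ0 * P.j (h * h') * P.τ0⁻¹ * (P.j (h * h'))⁻¹ =
          P.τ0 * P.j h * P.τ0⁻¹ * (P.j h)⁻¹ * (P.τ0 * P.j h' * P.τ0⁻¹ * (P.j h')⁻¹)
        have h1 := P.ker_comm hk (hcomm h' h'.2)
        rw [map_mul]
        calc P.τ0 * (P.j h * P.j h') * P.τ0⁻¹ * (P.j h * P.j h')⁻¹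
            = P.τ0 * P.j h * P.τ0⁻¹ * ((P.τ0 * P.j h' * P.τ0⁻¹ * (P.j h')⁻¹) * (P.j h)⁻¹) := by group
          _ = P.τ0 * P.j h * P.τ0⁻¹ * ((P.j h)⁻¹ * (P.τ0 * P.j h' * P.τ0⁻¹ * (P.j h')⁻¹)) := by
              rw [h1]
          _ = _ := by group }
  have hkχ : ∀ h : E.HF F, E.π h = 1 → χ h = 1 := by
    intro h hh
    apply Subtype.ext
    show P.τ0 * P.j h * P.τ0⁻¹ * (P.j h)⁻¹ = 1
    have h1 := P.ker_comm hk (g := P.j h) (by rw [P.prj, hh])
    rw [← h1]
    group
  have h1 : χ ⟨x, (hmem x).2 ⟨hp, hq⟩⟩ = 1 := E.hom_trivial (card_rest2 h8 _ _)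
    (fun a b => Subtype.ext (P.ker_comm hk a.2 b)) χ hkχ _
  have h2 : P.τ0 * P.j x * P.τ0⁻¹ * (P.j x)⁻¹ = 1 := congrArg Subtype.val h1
  rw [mul_inv_eq_one, mul_inv_eq_iff_eq_mul] at h2
  exact h2.symm

/-- The same for elements of `Γ`. -/
theorem comm_even' (h8 : 8 ≤ Fintype.card α) (hk : Ker E ε) {g : Γ}
    (hs : Perm.sign (P.pr g) = 1) (hp : P.pr g P.p = P.p)
    (hq : P.pr g P.q = P.q) : g * P.τ0 = P.τ0 * g := by
  obtain ⟨x, rfl⟩ := P.even g hs
  rw [P.prj] at hp hq
  exact P.comm_even h8 hk hp hq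

/-- Lifts of permutations with prescribed values at `p`, `q`. -/
theorem exists_h (h8 : 8 ≤ Fintype.card α) : ∃ H : α → α → L, ∀ a b, a ≠ b →
    E.π (H a b) P.p = a ∧ E.π (H a b) P.q = b := by
  have h1 : ∀ a b : α, ∃ g : L, a ≠ b → E.π g P.p = a ∧ E.π g P.q = b := by
    intro a b
    by_cases h : a = b
    · exact ⟨1, fun h' => absurd h h'⟩
    · obtain ⟨c, hc⟩ : ∃ c, c ∈ ({a, b} : Finset α)ᶜ := by
        have : 0 < (({a, b} : Finset α)ᶜ).card := by have := card_rest2 h8 a b; omega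
        exact card_pos.1 this
      obtain ⟨r, hr⟩ : ∃ c, c ∈ ({P.p, P.q} : Finset α)ᶜ := by
        have : 0 < (({P.p, P.q} : Finset α)ᶜ).card := by have := card_rest2 h8 P.p P.q; omega
        exact card_pos.1 this
      simp only [mem_compl, mem_insert, mem_singleton, not_or] at hc hr
      obtain ⟨g, h1, h2, -⟩ := E.exists_map3 h8 P.hpq (Ne.symm hr.2) (Ne.symm hr.1) h
        (Ne.symm hc.2) (Ne.symm hc.1)
      exact ⟨g, fun _ => ⟨h1, h2⟩⟩
  choose H hH using h1
  exact ⟨H, hH⟩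

section Main

variable (H : α → α → L) (hH : ∀ a b, a ≠ b → E.π (H a b) P.p = a ∧ E.π (H a b) P.q = b)

/-- The lifts of the transpositions. -/
def tt (a b : α) : Γ := P.j (H a b) * P.τ0 * (P.j (H a b))⁻¹

include hH in
theorem pr_tt {a b : α} (hab : a ≠ b) : P.pr (P.tt H a b) = swap a b := by
  unfold tt
  rw [map_mul, map_mul, map_inv, P.prj, P.prτ0, ← Equiv.swap_apply_apply, (hH a b hab).1,
    (hH a b hab).2]

theorem tt_sq (a b : α) : P.tt H a b * P.tt H a b = 1 := by
  unfold tt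
  calc P.j (H a b) * P.τ0 * (P.j (H a b))⁻¹ * (P.j (H a b) * P.τ0 * (P.j (H a b))⁻¹)
      = P.j (H a b) * (P.τ0 * P.τ0) * (P.j (H a b))⁻¹ := by group
    _ = 1 := by rw [P.sq]; group

include hH in
/-- If `g τ0 g⁻¹ = c g τ0` for all `g` fixing `p` and `q`, where `c` depends only on the sign, then
the lifts are equivariant up to `c`. -/
theorem conj_of {c : Γ → Γ} (hcc : ∀ g x, c g * x = x * c g)
    (hc : ∀ g g', Perm.sign (P.pr g) = Perm.sign (P.pr g') → c g = c g')
    (hfix : ∀ g, P.pr g P.p = P.p → P.pr g P.q = P.q → g * P.τ0 * g⁻¹ = c g * P.τ0)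
    (g : Γ) {a b : α} (hab : a ≠ b) :
    g * P.tt H a b * g⁻¹ = c g * P.tt H (P.pr g a) (P.pr g b) := by
  have hab' : P.pr g a ≠ P.pr g b := fun h => hab ((P.pr g).injective h)
  obtain ⟨h1, h2⟩ := hH a b hab
  obtain ⟨h3, h4⟩ := hH _ _ hab'
  set u := (P.j (H (P.pr g a) (P.pr g b)))⁻¹ * g * P.j (H a b) with hu
  have hup : P.pr u P.p = P.p := by
    rw [hu, map_mul, map_mul, map_inv, P.prj, P.prj, Perm.mul_apply, Perm.mul_apply, h1,
      Perm.inv_eq_iff_eq, h3]
  have huq : P.pr u P.q = P.q := by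
    rw [hu, map_mul, map_mul, map_inv, P.prj, P.prj, Perm.mul_apply, Perm.mul_apply, h2,
      Perm.inv_eq_iff_eq, h4]
  have hus : c u = c g := by
    apply hc
    rw [hu]
    simp only [map_mul, map_inv, P.prj, E.sign_π, inv_one, one_mul, mul_one]
  have h5 := hfix u hup huq
  unfold tt
  have h6 : g * P.j (H a b) = P.j (H (P.pr g a) (P.pr g b)) * u := by rw [hu]; group
  calc g * (P.j (H a b) * P.τ0 * (P.j (H a b))⁻¹) * g⁻¹
      = (g * P.j (H a b)) * P.τ0 * (g * P.j (H a b))⁻¹ := by group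
    _ = P.j (H (P.pr g a) (P.pr g b)) * (u * P.τ0 * u⁻¹) * (P.j (H (P.pr g a) (P.pr g b)))⁻¹ := by
        rw [h6]; group
    _ = P.j (H (P.pr g a) (P.pr g b)) * c g * (P.τ0 * (P.j (H (P.pr g a) (P.pr g b)))⁻¹) := by
        rw [h5, hus]; group
    _ = _ := by rw [← hcc]; group

include hH in
/-- There is an odd element which does not commute with the lift. -/
theorem not_comm (h8 : 8 ≤ Fintype.card α) (hs : E.NSec s ε) (hk : Ker E ε) :
    ¬ ∀ g, P.pr g P.p = P.p → P.pr g P.q = P.q → g * P.τ0 * g⁻¹ = P.τ0 := by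
  intro hcon
  have hconj : ∀ (g : Γ) {a b : α}, a ≠ b →
      g * P.tt H a b * g⁻¹ = P.tt H (P.pr g a) (P.pr g b) := by
    intro g a b hab
    have := P.conj_of H hH (c := fun _ => 1) (fun g x => by rw [one_mul, mul_one])
      (fun _ _ _ => rfl) (fun g h1 h2 => by rw [one_mul]; exact hcon g h1 h2) g hab
    rw [one_mul] at this
    exact this
  have hinv : ∀ a b, (P.tt H a b)⁻¹ = P.tt H a b := by
    intro a b
    rw [inv_eq_iff_mul_eq_one]
    exact P.tt_sq H a b
  have hsymm : ∀ {a b : α}, a ≠ b → P.tt H b a = P.tt H a b := by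
    intro a b hab
    have h1 := hconj (P.tt H a b) hab
    rw [P.pr_tt H hH hab, swap_apply_left, swap_apply_right] at h1
    rw [← h1]; group
  -- the lifts of 3-cycles
  have hs3 : ∀ {a b c : α}, a ≠ b → b ≠ c → a ≠ c → P.tt H a b * P.tt H b c = P.j (s a b c) := by
    intro a b c hab hbc hac
    have hpr : P.pr (P.tt H a b * P.tt H b c) = c3 a b c := by
      rw [map_mul, P.pr_tt H hH hab, P.pr_tt H hH hbc]; rfl
    have h1 : P.tt H a b * P.tt H b c * P.tt H a b = P.tt H a c := by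
      have h2 := hconj (P.tt H a b) hbc
      rw [P.pr_tt H hH hab, swap_apply_right, swap_apply_of_ne_of_ne (Ne.symm hac) (Ne.symm hbc),
        hinv] at h2
      exact h2
    have h2 : P.tt H b c * P.tt H a b * P.tt H b c = P.tt H a c := by
      have h2 := hconj (P.tt H b c) hab
      rw [P.pr_tt H hH hbc, swap_apply_left, swap_apply_of_ne_of_ne hab hac, hinv] at h2
      exact h2
    have h3 : (P.tt H a b * P.tt H b c) * (P.tt H a b * P.tt H b c) * (P.tt H a b * P.tt H b c) = 1 := by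
      calc (P.tt H a b * P.tt H b c) * (P.tt H a b * P.tt H b c) * (P.tt H a b * P.tt H b c)
          = (P.tt H a b * P.tt H b c * P.tt H a b) * (P.tt H b c * P.tt H a b * P.tt H b c) := by
            group
        _ = 1 := by rw [h1, h2, P.tt_sq]
    have h4 : P.j (s a b c) * P.j (s a b c) * P.j (s a b c) = 1 := by
      rw [← map_mul, ← map_mul, hs.sq hab hbc hac, hs.inv hac (Ne.symm hbc) hab, map_one]
    have h5 : P.pr (P.tt H a b * P.tt H b c * (P.j (s a b c))⁻¹) = 1 := by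
      rw [map_mul, map_inv, hpr, P.prj, hs.sec.π_s hab hbc hac, mul_inv_cancel]
    rcases (P.ker hk _).1 h5 with h | h
    · exact mul_inv_eq_one.1 h
    · exfalso
      apply P.z_ne hk
      have h6 : P.tt H a b * P.tt H b c = P.j ε * P.j (s a b c) := by
        rw [mul_inv_eq_iff_eq_mul] at h; exact h
      rw [h6] at h3
      have hz := P.z_comm hk
      have h7 : P.j ε * P.j (s a b c) * (P.j ε * P.j (s a b c)) * (P.j ε * P.j (s a b c)) =
          P.j ε * P.j ε * P.j ε * (P.j (s a b c) * P.j (s a b c) * P.j (s a b c)) := by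
        calc P.j ε * P.j (s a b c) * (P.j ε * P.j (s a b c)) * (P.j ε * P.j (s a b c))
            = P.j ε * (P.j (s a b c) * P.j ε) * (P.j (s a b c) * P.j ε) * P.j (s a b c) := by group
          _ = P.j ε * (P.j ε * P.j (s a b c)) * (P.j ε * P.j (s a b c)) * P.j (s a b c) := by
              rw [← hz (P.j (s a b c))]
          _ = P.j ε * P.j ε * (P.j (s a b c) * P.j ε) * (P.j (s a b c) * P.j (s a b c)) := by group
          _ = P.j ε * P.j ε * (P.j ε * P.j (s a b c)) * (P.j (s a b c) * P.j (s a b c)) := by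
              rw [← hz (P.j (s a b c))]
          _ = _ := by group
      rw [h7, h4, mul_one, P.z_sq hk, one_mul] at h3
      exact h3
  -- four distinct points
  obtain ⟨t, b, g, a, htb, htg, hta, hbg, hba, hga⟩ : ∃ t b g a : α, t ≠ b ∧ t ≠ g ∧ t ≠ a ∧
      b ≠ g ∧ b ≠ a ∧ g ≠ a := by
    have e := (Fintype.equivFin α).symm
    have hne : ∀ i j : ℕ, ∀ (hi : i < Fintype.card α) (hj : j < Fintype.card α), i ≠ j →
        e ⟨i, hi⟩ ≠ e ⟨j, hj⟩ := by
      intro i j hi hj hij h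
      exact hij (congrArg Fin.val (e.injective h))
    exact ⟨e ⟨0, by omega⟩, e ⟨1, by omega⟩, e ⟨2, by omega⟩, e ⟨3, by omega⟩,
      hne _ _ _ _ (by omega), hne _ _ _ _ (by omega), hne _ _ _ _ (by omega),
      hne _ _ _ _ (by omega), hne _ _ _ _ (by omega), hne _ _ _ _ (by omega)⟩
  have h1 := hs.rel htb htg hta hbg hba hga
  have e1 : s t b g = s g t b := hs.sec.rot E (Ne.symm htg) htb (Ne.symm hbg)
  have e2 : s t a b = s b t a := hs.sec.rot E (Ne.symm htb) hta hba
  have e3 : s t a g = s g t a := hs.sec.rot E (Ne.symm htg) hta hga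
  rw [e1, e2, e3] at h1
  have h2 := congrArg P.j h1
  rw [map_mul, map_mul, ← hs3 (Ne.symm htg) htb (Ne.symm hbg), ← hs3 (Ne.symm htb) hta hba,
    ← hs3 (Ne.symm htg) hta hga, hsymm htb] at h2
  apply P.z_ne hk
  have h3 : P.tt H g t * P.tt H t b * (P.tt H t b * P.tt H t a) = P.tt H g t * P.tt H t a := by
    calc P.tt H g t * P.tt H t b * (P.tt H t b * P.tt H t a)
        = P.tt H g t * (P.tt H t b * P.tt H t b) * P.tt H t a := by group
      _ = _ := by rw [P.tt_sq, mul_one]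
  rw [h3] at h2
  exact (mul_right_cancel ((one_mul _).trans h2)).symm

/-- Odd elements fixing `p` and `q` anticommute with the lift. -/
theorem conj_fix (h8 : 8 ≤ Fintype.card α) (hs : E.NSec s ε) (hk : Ker E ε) (g : Γ)
    (hp : P.pr g P.p = P.p) (hq : P.pr g P.q = P.q) :
    g * P.τ0 * g⁻¹ = (if Perm.sign (P.pr g) = 1 then 1 else P.j ε) * P.τ0 := by
  obtain ⟨H, hH⟩ := P.exists_h h8
  split_ifs with hsg
  · rw [P.comm_even' h8 hk hsg hp hq, one_mul]
    group
  · -- an odd element which does not commute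
    have h1 := P.not_comm H hH h8 hs hk
    push Not at h1
    obtain ⟨u, hup, huq, hu⟩ := h1
    have hpr : ∀ v : Γ, P.pr v P.p = P.p → P.pr v P.q = P.q → P.pr (v * P.τ0 * v⁻¹ * P.τ0⁻¹) = 1 := by
      intro v h1 h2
      have h3 : P.pr v * swap P.p P.q = swap P.p P.q * P.pr v := by
        have := Equiv.mul_swap_eq_swap_mul (P.pr v) P.p P.q
        rw [this, h1, h2]
      rw [map_mul, map_mul, map_mul, map_inv, map_inv, P.prτ0, h3]
      group
    have hu2 : u * P.τ0 * u⁻¹ = P.j ε * P.τ0 := by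
      rcases (P.ker hk _).1 (hpr u hup huq) with h | h
      · exact absurd (mul_inv_eq_one.1 h) hu
      · rw [mul_inv_eq_iff_eq_mul] at h; exact h
    have husg : Perm.sign (P.pr u) ≠ 1 := by
      intro h
      apply hu
      rw [P.comm_even' h8 hk h hup huq]
      group
    have hw : (u⁻¹ * g) * P.τ0 = P.τ0 * (u⁻¹ * g) := by
      apply P.comm_even' h8 hk
      · rw [map_mul, map_mul, map_inv, map_inv]
        have e1 := (Int.units_eq_one_or (Perm.sign (P.pr u))).resolve_left husg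
        have e2 := (Int.units_eq_one_or (Perm.sign (P.pr g))).resolve_left hsg
        rw [e1, e2]; rfl
      · rw [map_mul, map_inv, Perm.mul_apply, hp, Perm.inv_eq_iff_eq, hup]
      · rw [map_mul, map_inv, Perm.mul_apply, hq, Perm.inv_eq_iff_eq, huq]
    calc g * P.τ0 * g⁻¹ = u * ((u⁻¹ * g) * P.τ0) * (u⁻¹ * g)⁻¹ * u⁻¹ := by group
      _ = u * (P.τ0 * (u⁻¹ * g)) * (u⁻¹ * g)⁻¹ * u⁻¹ := by rw [hw]
      _ = u * P.τ0 * u⁻¹ := by group
      _ = _ := hu2

end Main

/-- The spin structure. -/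
theorem exists_spinStr (h8 : 8 ≤ Fintype.card α) (hs : E.NSec s ε) (hk : Ker E ε) :
    ∃ S : SpinStr α Γ, S.π = P.pr ∧ S.z = P.j ε := by
  obtain ⟨H, hH⟩ := P.exists_h h8
  have hconj : ∀ (g : Γ) {a b : α}, a ≠ b → g * P.tt H a b * g⁻¹ =
      (if Perm.sign (P.pr g) = 1 then 1 else P.j ε) * P.tt H (P.pr g a) (P.pr g b) := by
    intro g a b hab
    refine P.conj_of H hH (c := fun g => if Perm.sign (P.pr g) = 1 then 1 else P.j ε) ?_ ?_ ?_ g hab
    · intro g x
      split_ifs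
      · rw [one_mul, mul_one]
      · exact P.z_comm hk x
    · intro g g' h
      simp only [h]
    · intro g h1 h2
      exact P.conj_fix h8 hs hk g h1 h2
  refine ⟨{ π := P.pr, z := P.j ε, z_ne := P.z_ne hk, z_sq := P.z_sq hk, z_comm := P.z_comm hk,
            ker := P.ker hk, τ := P.tt H, π_τ := fun hij => P.pr_tt H hH hij, τ_symm := ?_,
            conj := fun hij g => hconj g hij }, rfl, rfl⟩
  intro a b hab
  have h1 := hconj (P.tt H a b) hab
  have h2 : ¬ Perm.sign (swap a b) = 1 := by rw [Perm.sign_swap hab]; decide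
  rw [P.pr_tt H hH hab, swap_apply_left, swap_apply_right, if_neg h2, mul_assoc] at h1
  rw [mul_inv_cancel, mul_one] at h1
  -- `tt a b = z * tt b a`
  rw [h1, ← mul_assoc, P.z_sq hk, one_mul]

end Pre

end AltExt

end Vale.Agent.P180.R2.H589
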