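import Vale.Agent.P180.R2.H589.Cov.Tr

/-!
P180: the dimension of the corner, for blocks of a double cover of an alternating group on which
the central involution acts as `-1`.
-/

set_option linter.all false

namespace Vale.Agent.P180.R2.H589

open Equiv Vale.Agent.P180 Vale.Agent.P180.H768.Gd Vale.Agent.P180.R2.H799 Vale.Agent.P180.R2.H12

universe u

variable {k : Type u} [Field k] [IsAlgClosed k] {p : ℕ} [Fact p.Prime] [CharP k p]
  {G : Type} [Group G] [Finite G] {α : Type} [Fintype α] [DecidableEq α]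
  {Γ : Type} [Group Γ] [Fintype Γ] [DecidableEq Γ] {SS : SpinStr α Γ}

theorem spin_dim (h2 : (2 : k) ≠ 0) {Fs : Finset α} {φ : SS.ΓA →* G} (hφ : Function.Injective φ)
    {S : Subgroup G} (hφS : φ.range = S) {z : G} (hz : φ ⟨SS.z, SS.z_mem_ΓA⟩ = z)
    {B : Subgroup G} (hB : ∀ x : SS.ΓA, φ x ∈ B ↔ x ∈ SS.AF Fs) (hBS : B ≤ S) {R : Subgroup G}
    (hR : IsPGroup p R) {e f : MonoidAlgebra k G} (he : IsBlockOf S e)
    (hf : f ∈ SubAlg k B) (hff : f * f = f)
    (hfz : MonoidAlgebra.single z (1 : k) * f = - f)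
    (hfB : ∀ y ∈ SubAlg k B, ∃ c : k, f * y * f = c • f)
    (h1 : ∃ z ∈ SubAlg k S, z ∈ Fix (cj k G) (S ⊓ R) ∧ e = tr (cj k G) (S ⊓ R) S z) :
    Module.finrank k (NN (SubAlg k S) (e * f) (e * f)) ≤
      CC (Nat.card (R.comap φ)) (Fsᶜ).card := by
  classical
  have hid : Function.Surjective (RingHom.id k) := fun x => ⟨x, rfl⟩
  have htop : (⊤ : Subgroup SS.ΓA).map φ = S := by
    rw [← MonoidHom.range_eq_map, hφS]
  have hBm : (SS.AF Fs).map φ = B := by
    ext y
    constructor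
    · rintro ⟨x, hx, rfl⟩
      exact (hB x).mpr hx
    · intro hy
      have h3 := hBS hy
      rw [← hφS] at h3
      obtain ⟨x, rfl⟩ := h3
      exact ⟨x, (hB x).mp hy, rfl⟩
  obtain ⟨f', hf', hff'⟩ := tm_surj (f := φ) (Y := SS.AF Fs) hid (b := f) (by rw [hBm]; exact hf)
  obtain ⟨e', he', hee'⟩ := tm_surj (f := φ) (Y := ⊤) hid (b := e) (by rw [htop]; exact he.mem.1)
  obtain ⟨z₁, hz₁, hz₁F, hez₁⟩ := h1
  obtain ⟨z', hz', hzz'⟩ := tm_surj (f := φ) (Y := ⊤) hid (b := z₁) (by rw [htop]; exact hz₁)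
  have hinj : ∀ {a b : MonoidAlgebra k SS.ΓA},
      tm (RingHom.id k) φ a = tm (RingHom.id k) φ b → a = b := fun {a b} h =>
    tm_inj (Y := ⊤) hφ.injOn (SubAlg_top a) (SubAlg_top b) h
  have he'blk : IsBlockOf ⊤ e' := by
    rw [← tm_block_iff hid hφ.injOn he', htop, hee']
    exact he
  have hz'F : z' ∈ Fix (cj k SS.ΓA) (R.comap φ) := by
    intro x hx
    apply hinj
    rw [tm_cj, hzz']
    exact hz₁F _ ⟨by rw [← hφS]; exact ⟨x, rfl⟩, hx⟩
  have he'tr : e' = tr (cj k SS.ΓA) (R.comap φ) ⊤ z' := by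
    apply hinj
    rw [tm_tr_comap R hz'F, hee', hzz', hφS]
    exact hez₁
  have hPp : IsPGroup p (R.comap φ) := hR.comap_of_injective φ hφ
  have hmain := SS.spin_corner h2 Fs hPp he'blk hz'F he'tr hf'
    (by apply hinj; rw [map_mul, hff', hff])
    (by
      intro y hy
      obtain ⟨c, hc⟩ := hfB (tm (RingHom.id k) φ y) (by rw [← hBm]; exact tm_mem hy)
      refine ⟨c, ?_⟩
      apply hinj
      rw [map_mul, map_mul, hff', hc, tm_smul, hff']
      rfl)
    (by
      apply hinj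
      rw [map_mul, hff', tm_single, hz, map_neg, hff']
      exact hfz)
  refine le_trans ?_ hmain
  have h8 : e * f = MonoidAlgebra.mapDomainAlgHom k k φ (e' * f') := by
    rw [← tm_eq_mapDomain, map_mul, hee', hff']
  rw [h8, ← hφS, finrank_NN_hom hφ]
  refine Submodule.finrank_mono ?_
  rintro x ⟨-, h9, h10⟩
  refine H589.mem_crn.mpr ⟨x, ?_⟩
  rw [h9, h10]

end Vale.Agent.P180.R2.H589
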